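import Vale.Agent.H32.DS.Basic

/-!
Ahlfors-David regularity of `ν` from that of `lineProd ν = L¹ ⊗ ν`.
-/

open MeasureTheory Set Filter Topology
open scoped NNReal ENNReal

set_option linter.unusedSectionVars false
set_option linter.unusedVariables false

namespace Vale.Agent.H32

section adreg

variable {E : Type*} [NormedAddCommGroup E] [InnerProductSpace ℝ E] [MeasurableSpace E]

/-- If `L¹ ⊗ ν` is `(n+1)`-AD-regular then `ν` satisfies two-sided `n`-dimensional bounds on
balls centred on its support, at all scales. -/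
theorem adRegular_of_lineProd (n : ℕ) (hn : 1 ≤ n) (ν : Measure E) [SFinite ν]
    (hAD : IsADRegular (n + 1) (lineProd ν)) :
    ∃ C : ℝ, 1 ≤ C ∧ ∀ x ∈ ν.support, ∀ r : ℝ, 0 < r →
      ENNReal.ofReal (C⁻¹ * r ^ n) ≤ ν (Metric.ball x r) ∧
        ν (Metric.ball x r) ≤ ENNReal.ofReal (C * r ^ n) := by
  obtain ⟨C, hC1, hC⟩ := hAD
  have hC0 : 0 < C := lt_of_lt_of_le one_pos hC1
  have h2n : (2 : ℝ) ≤ 2 ^ n := by
    calc (2 : ℝ) = 2 ^ 1 := by norm_num
      _ ≤ 2 ^ n := pow_le_pow_right₀ (by norm_num) hn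
  refine ⟨C * 2 ^ n, by nlinarith, ?_⟩
  intro x hx r hr
  have hp : WithLp.toLp 2 ((0 : ℝ), x) ∈ (lineProd ν).support :=
    (mem_support_lineProd_iff ν 0 x).mpr hx
  have hdiam : Metric.ediam (lineProd ν).support = ⊤ := ediam_support_lineProd ν ⟨x, hx⟩
  have h1 := hC _ hp r hr (by rw [hdiam]; exact le_top)
  have h2 := hC _ hp (2 * r) (by positivity) (by rw [hdiam]; exact le_top)
  have h2r0 : ENNReal.ofReal (2 * r) ≠ 0 := by
    simp only [ne_eq, ENNReal.ofReal_eq_zero, not_le]; positivity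
  have h2rt : ENNReal.ofReal (2 * r) ≠ ⊤ := ENNReal.ofReal_ne_top
  constructor
  · have hle : ENNReal.ofReal (2 * r) * ENNReal.ofReal ((C * 2 ^ n)⁻¹ * r ^ n) ≤
        ENNReal.ofReal (2 * r) * ν (Metric.ball x r) := by
      calc ENNReal.ofReal (2 * r) * ENNReal.ofReal ((C * 2 ^ n)⁻¹ * r ^ n)
          = ENNReal.ofReal (2 * r * ((C * 2 ^ n)⁻¹ * r ^ n)) := by
            rw [← ENNReal.ofReal_mul (by positivity)]
        _ ≤ ENNReal.ofReal (C⁻¹ * r ^ (n + 1)) := by
            apply ENNReal.ofReal_le_ofReal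
            rw [mul_inv, pow_succ]
            have hrn : 0 < r ^ n := by positivity
            have h2i : 2 * (2 ^ n : ℝ)⁻¹ ≤ 1 := by
              rw [mul_inv_le_iff₀ (by positivity)]; linarith
            have hCi : 0 < C⁻¹ := inv_pos.mpr hC0
            have e : 2 * r * (C⁻¹ * (2 ^ n : ℝ)⁻¹ * r ^ n) =
                (2 * (2 ^ n : ℝ)⁻¹) * (C⁻¹ * (r ^ n * r)) := by ring
            rw [e]
            have : 0 ≤ C⁻¹ * (r ^ n * r) := by positivity
            nlinarith
        _ ≤ lineProd ν (Metric.ball (WithLp.toLp 2 ((0 : ℝ), x)) r) := h1.1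
        _ ≤ ENNReal.ofReal (2 * r) * ν (Metric.ball x r) := lineProd_ball_le ν 0 x r
    exact (ENNReal.mul_le_mul_iff_right h2r0 h2rt).mp hle
  · have hle : ENNReal.ofReal (2 * r) * ν (Metric.ball x r) ≤
        ENNReal.ofReal (2 * r) * ENNReal.ofReal (C * 2 ^ n * r ^ n) := by
      calc ENNReal.ofReal (2 * r) * ν (Metric.ball x r)
          ≤ lineProd ν (Metric.ball (WithLp.toLp 2 ((0 : ℝ), x)) (2 * r) ∩
              WithLp.toLp 2 '' (Set.univ ×ˢ Metric.ball x r)) :=
            le_lineProd_ball ν 0 x r (2 * r) hr.le (by positivity) (by nlinarith)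
              (Metric.ball x r) le_rfl
        _ ≤ lineProd ν (Metric.ball (WithLp.toLp 2 ((0 : ℝ), x)) (2 * r)) :=
            measure_mono Set.inter_subset_left
        _ ≤ ENNReal.ofReal (C * (2 * r) ^ (n + 1)) := h2.2
        _ = ENNReal.ofReal (2 * r) * ENNReal.ofReal (C * 2 ^ n * r ^ n) := by
            rw [← ENNReal.ofReal_mul (by positivity)]
            congr 1
            rw [mul_pow, pow_succ, pow_succ]; ring
    exact (ENNReal.mul_le_mul_iff_right h2r0 h2rt).mp hle

variable [BorelSpace E] [FiniteDimensional ℝ E]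

/-- An upper bound on balls centred on the support gives an upper bound on all closed balls. -/
theorem measure_closedBall_le_of_support (ν : Measure E) (C : ℝ) (n : ℕ) (hC0 : 0 ≤ C)
    (hup : ∀ x ∈ ν.support, ∀ r : ℝ, 0 < r → ν (Metric.ball x r) ≤ ENNReal.ofReal (C * r ^ n))
    (y : E) (r : ℝ) (hr : 0 < r) :
    ν (Metric.closedBall y r) ≤ ENNReal.ofReal (C * 4 ^ n * r ^ n) := by
  by_cases hne : (Metric.closedBall y r ∩ ν.support).Nonempty
  · obtain ⟨x, hxb, hxs⟩ := hne
    have hsub : Metric.closedBall y r ⊆ Metric.ball x (4 * r) := by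
      intro z hz
      rw [Metric.mem_ball]
      have h1 : dist z y ≤ r := hz
      have h2 : dist x y ≤ r := hxb
      calc dist z x ≤ dist z y + dist y x := dist_triangle _ _ _
        _ ≤ r + r := by rw [dist_comm y x]; linarith
        _ < 4 * r := by linarith
    calc ν (Metric.closedBall y r) ≤ ν (Metric.ball x (4 * r)) := measure_mono hsub
      _ ≤ ENNReal.ofReal (C * (4 * r) ^ n) := hup x hxs (4 * r) (by positivity)
      _ = ENNReal.ofReal (C * 4 ^ n * r ^ n) := by rw [mul_pow, mul_assoc]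
  · have hsub : Metric.closedBall y r ⊆ ν.supportᶜ := by
      intro z hz hzs
      exact hne ⟨z, hz, hzs⟩
    have h0 : ν (Metric.closedBall y r) = 0 :=
      measure_mono_null hsub Measure.measure_compl_support
    rw [h0]; exact zero_le

/-- Two-sided `n`-dimensional bounds at all scales force the support to be unbounded. -/
theorem ediam_support_eq_top_of_bounds (ν : Measure E) (C : ℝ) (n : ℕ) (hn : 1 ≤ n)
    (hC1 : 1 ≤ C)
    (hb : ∀ x ∈ ν.support, ∀ r : ℝ, 0 < r →
      ENNReal.ofReal (C⁻¹ * r ^ n) ≤ ν (Metric.ball x r) ∧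
        ν (Metric.ball x r) ≤ ENNReal.ofReal (C * r ^ n))
    (hne : ν.support.Nonempty) : Metric.ediam ν.support = ⊤ := by
  obtain ⟨x, hx⟩ := hne
  have hC0 : 0 < C := lt_of_lt_of_le one_pos hC1
  by_contra hcon
  obtain ⟨D, hD⟩ : ∃ D : ℝ≥0, (D : ℝ≥0∞) = Metric.ediam ν.support :=
    ⟨(Metric.ediam ν.support).toNNReal, ENNReal.coe_toNNReal hcon⟩
  set r : ℝ := (D : ℝ) + 1 with hr_def
  have hr : 0 < r := by positivity
  have hsupp : ν.support ⊆ Metric.ball x r := by
    intro z hz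
    have h1 := Metric.edist_le_ediam_of_mem hz hx
    rw [← hD, edist_dist] at h1
    have h2 : dist z x ≤ D := by
      have := ENNReal.toReal_mono ENNReal.coe_ne_top h1
      rwa [ENNReal.toReal_ofReal dist_nonneg, ENNReal.coe_toReal] at this
    rw [Metric.mem_ball]; linarith
  set R : ℝ := r * (C ^ 2 + 1) with hR_def
  have hR : 0 < R := by positivity
  have h1 := (hb x hx R hR).1
  have h2 := (hb x hx r hr).2
  have h3 : ν (Metric.ball x R) ≤ ν (Metric.ball x r) := by
    have hcov : Metric.ball x R ⊆ Metric.ball x r ∪ ν.supportᶜ := by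
      intro z _
      by_cases hz : z ∈ ν.support
      · exact Or.inl (hsupp hz)
      · exact Or.inr hz
    calc ν (Metric.ball x R) ≤ ν (Metric.ball x r ∪ ν.supportᶜ) := measure_mono hcov
      _ ≤ ν (Metric.ball x r) + ν ν.supportᶜ := measure_union_le _ _
      _ = ν (Metric.ball x r) := by rw [Measure.measure_compl_support, add_zero]
  have h4 : ENNReal.ofReal (C⁻¹ * R ^ n) ≤ ENNReal.ofReal (C * r ^ n) := h1.trans (h3.trans h2)
  have h5 : C⁻¹ * R ^ n ≤ C * r ^ n := by
    have := (ENNReal.ofReal_le_ofReal_iff (by positivity)).mp h4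
    exact this
  have h6 : C * r ^ n < C⁻¹ * R ^ n := by
    rw [hR_def, mul_pow]
    have hrn : 0 < r ^ n := by positivity
    have hC2 : C ^ 2 + 1 ≤ (C ^ 2 + 1) ^ n := by
      calc C ^ 2 + 1 = (C ^ 2 + 1) ^ 1 := by ring
        _ ≤ (C ^ 2 + 1) ^ n := pow_le_pow_right₀ (by nlinarith) hn
    have hCi : C⁻¹ * (C ^ 2 + 1) > C := by
      rw [gt_iff_lt, ← div_eq_inv_mul, lt_div_iff₀ hC0]; nlinarith
    calc C * r ^ n < C⁻¹ * (C ^ 2 + 1) * r ^ n := by nlinarith
      _ ≤ C⁻¹ * (C ^ 2 + 1) ^ n * r ^ n := by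
          have : 0 < C⁻¹ := inv_pos.mpr hC0
          have h' : C⁻¹ * (C ^ 2 + 1) ≤ C⁻¹ * (C ^ 2 + 1) ^ n :=
            mul_le_mul_of_nonneg_left hC2 this.le
          nlinarith
      _ = C⁻¹ * (r ^ n * (C ^ 2 + 1) ^ n) := by ring
  linarith

end adreg

end Vale.Agent.H32
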