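import Vale.Agent.H32.DS.L2

/-!
The averaging argument: an `L²` bound for the operator with kernel `slInt` from the
`L²` bound for the Riesz transform of `L¹ ⊗ ν`.
-/

open MeasureTheory Set Filter Topology
open scoped NNReal ENNReal

set_option linter.unusedSectionVars false
set_option linter.unusedVariables false

namespace Vale.Agent.H32

section avgarg

variable {E : Type*} [NormedAddCommGroup E] [InnerProductSpace ℝ E] [MeasurableSpace E]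
  [BorelSpace E] [FiniteDimensional ℝ E]

theorem measurable_tensorFn (L : ℝ) (g : E → ℝ) (hgm : Measurable g) :
    Measurable (tensorFn L g) := by
  unfold tensorFn
  have h1 : Measurable (fun q : WithLp 2 (ℝ × E) => q.fst) :=
    measurable_fst.comp (WithLp.measurable_ofLp 2 _)
  have h2 : Measurable (fun q : WithLp 2 (ℝ × E) => q.snd) :=
    measurable_snd.comp (WithLp.measurable_ofLp 2 _)
  exact ((measurable_const.indicator measurableSet_Ioc).comp h1).mul (hgm.comp h2)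

theorem lintegral_sq_tensorFn (ν : Measure E) [SFinite ν] (L : ℝ) (g : E → ℝ)
    (hgm : Measurable g) :
    ∫⁻ p, ‖tensorFn L g p‖ₑ ^ 2 ∂(lineProd ν) =
      ENNReal.ofReal L * ∫⁻ x, ‖g x‖ₑ ^ 2 ∂ν := by
  rw [lintegral_lineProd ν _ ((measurable_tensorFn L g hgm).enorm.pow_const 2)]
  have h1 : ∀ t : ℝ, ∫⁻ x, ‖tensorFn L g (WithLp.toLp 2 (t, x))‖ₑ ^ 2 ∂ν =
      Set.indicator (Set.Ioc 0 L) (fun _ => ∫⁻ x, ‖g x‖ₑ ^ 2 ∂ν) t := by
    intro t
    unfold tensorFn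
    by_cases ht : t ∈ Set.Ioc 0 L
    · simp [Set.indicator_of_mem ht]
    · simp [Set.indicator_of_notMem ht]
  simp_rw [h1]
  rw [lintegral_indicator measurableSet_Ioc, setLIntegral_const, Real.volume_Ioc, sub_zero,
    mul_comm]

theorem memLp_tensorFn (ν : Measure E) [SFinite ν] (L : ℝ) (g : E → ℝ)
    (hgm : Measurable g) (hg2 : MemLp g 2 ν) : MemLp (tensorFn L g) 2 (lineProd ν) := by
  refine ⟨(measurable_tensorFn L g hgm).aestronglyMeasurable, ?_⟩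
  have h1 : eLpNorm (tensorFn L g) 2 (lineProd ν) ^ 2 < ⊤ := by
    rw [eLpNorm_two_sq, lintegral_sq_tensorFn ν L g hgm]
    have h2 : ∫⁻ x, ‖g x‖ₑ ^ 2 ∂ν < ⊤ := by
      rw [← eLpNorm_two_sq]
      exact ENNReal.pow_lt_top hg2.2
    exact ENNReal.mul_lt_top ENNReal.ofReal_lt_top h2
  by_contra hcon
  rw [not_lt, top_le_iff] at hcon
  rw [hcon] at h1
  simp at h1

/-- The function `Ψ(t, x) = ∫_0^L slOp (t - t') x dt'`. -/
noncomputable def psiFn (n : ℕ) (ε : ℝ) (ν : Measure E) (g : E → ℝ) (L : ℝ) (t : ℝ) (x : E) : E :=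
  ∫ t' in (0 : ℝ)..L, slOp n ε ν g (t - t') x

theorem stronglyMeasurable_psiFn (n : ℕ) (ε : ℝ) (ν : Measure E) [SFinite ν] (g : E → ℝ)
    (hgm : StronglyMeasurable g) (L : ℝ) (hL : 0 ≤ L) :
    StronglyMeasurable (fun p : ℝ × E => psiFn n ε ν g L p.1 p.2) := by
  have hm : Measurable (fun q : (ℝ × E) × ℝ => ((q.1.1 - q.2, q.1.2) : ℝ × E)) :=
    ((measurable_fst.comp measurable_fst).sub measurable_snd).prodMk
      (measurable_snd.comp measurable_fst)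
  have h := (stronglyMeasurable_slOp n ε ν g hgm).comp_measurable hm
  have h2 : StronglyMeasurable (fun p : ℝ × E => ∫ t', slOp n ε ν g (p.1 - t') p.2
      ∂((volume : Measure ℝ).restrict (Set.Ioc 0 L))) :=
    MeasureTheory.StronglyMeasurable.integral_prod_right
      (ν := (volume : Measure ℝ).restrict (Set.Ioc 0 L))
      (f := fun (p : ℝ × E) (t' : ℝ) => slOp n ε ν g (p.1 - t') p.2) h
  have h3 : ∀ p : ℝ × E, psiFn n ε ν g L p.1 p.2 =
      ∫ t', slOp n ε ν g (p.1 - t') p.2 ∂((volume : Measure ℝ).restrict (Set.Ioc 0 L)) := by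
    intro p
    unfold psiFn
    rw [intervalIntegral.integral_of_le hL]
  have h4 : (fun p : ℝ × E => psiFn n ε ν g L p.1 p.2) = fun p : ℝ × E =>
      ∫ t', slOp n ε ν g (p.1 - t') p.2 ∂((volume : Measure ℝ).restrict (Set.Ioc 0 L)) :=
    funext h3
  rw [h4]
  exact h2

/-- Main chain of inequalities for the averages. -/
theorem lintegral_sq_avg_le (n : ℕ) (ε : ℝ) (ν : Measure E) [SFinite ν] (C : ℝ)
    (hR : ∀ f : WithLp 2 (ℝ × E) → ℝ, MemLp f 2 (lineProd ν) →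
      (∀ p : WithLp 2 (ℝ × E), IntegrableOn (fun q => f q • rieszKernel (n + 1) (p - q))
        {q : WithLp 2 (ℝ × E) | ε < dist p q} (lineProd ν)) ∧
      eLpNorm (truncRiesz (n + 1) (lineProd ν) ε f) 2 (lineProd ν) ≤
        ENNReal.ofReal C * eLpNorm f 2 (lineProd ν))
    (g : E → ℝ) (hg2 : MemLp g 2 ν) (hgm : StronglyMeasurable g) (L : ℝ) (hL : 0 < L) :
    ∫⁻ x, ‖L⁻¹ • ∫ t in (0 : ℝ)..L, psiFn n ε ν g L t x‖ₑ ^ 2 ∂ν ≤
      ENNReal.ofReal C ^ 2 * ∫⁻ x, ‖g x‖ₑ ^ 2 ∂ν := by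
  have hF := memLp_tensorFn ν L g hgm.measurable hg2
  obtain ⟨hint, hnorm⟩ := hR (tensorFn L g) hF
  have hΨm := stronglyMeasurable_psiFn n ε ν g hgm L hL.le
  -- (a) pointwise bound
  have ha : ∀ (t : ℝ) (x : E), ‖psiFn n ε ν g L t x‖ₑ ≤
      ‖truncRiesz (n + 1) (lineProd ν) ε (tensorFn L g) (WithLp.toLp 2 (t, x))‖ₑ := by
    intro t x
    have h1 := snd_truncRiesz_lineProd n ε ν g L hL.le t x (hint _)
    unfold psiFn
    rw [← h1]
    rw [enorm_le_iff_norm_le]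
    exact norm_le_norm_toLp _ _
  -- (b) Cauchy-Schwarz in `t`
  have hb : ∀ x : E, ‖∫ t in (0 : ℝ)..L, psiFn n ε ν g L t x‖ₑ ^ 2 ≤
      ENNReal.ofReal L * ∫⁻ t, ‖psiFn n ε ν g L t x‖ₑ ^ 2 := by
    intro x
    rw [intervalIntegral.integral_of_le hL.le]
    have hm : AEStronglyMeasurable (fun t => psiFn n ε ν g L t x)
        ((volume : Measure ℝ).restrict (Set.Ioc 0 L)) :=
      (hΨm.comp_measurable (measurable_id.prodMk measurable_const)).aestronglyMeasurable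
    have h1 : ‖∫ t in Set.Ioc (0 : ℝ) L, psiFn n ε ν g L t x‖ₑ ≤
        ∫⁻ t in Set.Ioc (0 : ℝ) L, ‖psiFn n ε ν g L t x‖ₑ := enorm_integral_le_lintegral_enorm _
    have h2 := sq_lintegral_enorm_le (fun t => psiFn n ε ν g L t x)
      ((volume : Measure ℝ).restrict (Set.Ioc 0 L)) hm
    rw [Measure.restrict_apply MeasurableSet.univ, Set.univ_inter, Real.volume_Ioc, sub_zero]
      at h2
    calc ‖∫ t in Set.Ioc (0 : ℝ) L, psiFn n ε ν g L t x‖ₑ ^ 2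
        ≤ (∫⁻ t in Set.Ioc (0 : ℝ) L, ‖psiFn n ε ν g L t x‖ₑ) ^ 2 := pow_le_pow_left' h1 2
      _ ≤ ENNReal.ofReal L * ∫⁻ t in Set.Ioc (0 : ℝ) L, ‖psiFn n ε ν g L t x‖ₑ ^ 2 := h2
      _ ≤ ENNReal.ofReal L * ∫⁻ t, ‖psiFn n ε ν g L t x‖ₑ ^ 2 :=
          mul_le_mul_right (lintegral_mono' Measure.restrict_le_self le_rfl) _
  -- (c) Tonelli and the hypothesis
  have hmeas : Measurable (fun p : ℝ × E => ‖psiFn n ε ν g L p.1 p.2‖ₑ ^ 2) :=
    hΨm.measurable.enorm.pow_const 2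
  have hc : ∫⁻ x, (∫⁻ t, ‖psiFn n ε ν g L t x‖ₑ ^ 2) ∂ν ≤
      ENNReal.ofReal C ^ 2 * (ENNReal.ofReal L * ∫⁻ x, ‖g x‖ₑ ^ 2 ∂ν) := by
    rw [lintegral_lintegral_swap
      (f := fun (x : E) (t : ℝ) => ‖psiFn n ε ν g L t x‖ₑ ^ 2)
      (hmeas.comp measurable_swap).aemeasurable]
    have hm2 : Measurable (fun p : WithLp 2 (ℝ × E) => ‖psiFn n ε ν g L p.fst p.snd‖ₑ ^ 2) :=
      hmeas.comp (WithLp.measurable_ofLp 2 _)
    have h1 := lintegral_lineProd ν _ hm2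
    simp only [WithLp.toLp_fst, WithLp.toLp_snd] at h1
    rw [← h1]
    calc ∫⁻ p, ‖psiFn n ε ν g L p.fst p.snd‖ₑ ^ 2 ∂(lineProd ν)
        ≤ ∫⁻ p, ‖truncRiesz (n + 1) (lineProd ν) ε (tensorFn L g) p‖ₑ ^ 2 ∂(lineProd ν) := by
          apply lintegral_mono
          intro p
          exact pow_le_pow_left' (ha p.fst p.snd) 2
      _ = eLpNorm (truncRiesz (n + 1) (lineProd ν) ε (tensorFn L g)) 2 (lineProd ν) ^ 2 :=
          (eLpNorm_two_sq _ _).symm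
      _ ≤ (ENNReal.ofReal C * eLpNorm (tensorFn L g) 2 (lineProd ν)) ^ 2 :=
          pow_le_pow_left' hnorm 2
      _ = ENNReal.ofReal C ^ 2 * (ENNReal.ofReal L * ∫⁻ x, ‖g x‖ₑ ^ 2 ∂ν) := by
          rw [mul_pow, eLpNorm_two_sq, lintegral_sq_tensorFn ν L g hgm.measurable]
  -- (d) conclusion
  have hLi : ‖L⁻¹‖ₑ = (ENNReal.ofReal L)⁻¹ := by
    rw [Real.enorm_eq_ofReal (inv_nonneg.mpr hL.le), ENNReal.ofReal_inv_of_pos hL]
  have hL0 : ENNReal.ofReal L ≠ 0 := by simpa using hL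
  have hLt : ENNReal.ofReal L ≠ ⊤ := ENNReal.ofReal_ne_top
  calc ∫⁻ x, ‖L⁻¹ • ∫ t in (0 : ℝ)..L, psiFn n ε ν g L t x‖ₑ ^ 2 ∂ν
      = ∫⁻ x, ((ENNReal.ofReal L)⁻¹) ^ 2 * ‖∫ t in (0 : ℝ)..L, psiFn n ε ν g L t x‖ₑ ^ 2 ∂ν := by
        congr 1
        ext x
        rw [enorm_smul, mul_pow, hLi]
    _ ≤ ∫⁻ x, ((ENNReal.ofReal L)⁻¹) ^ 2 *
          (ENNReal.ofReal L * ∫⁻ t, ‖psiFn n ε ν g L t x‖ₑ ^ 2) ∂ν :=
        lintegral_mono fun x => mul_le_mul_right (hb x) _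
    _ = ((ENNReal.ofReal L)⁻¹) ^ 2 * (ENNReal.ofReal L *
          ∫⁻ x, (∫⁻ t, ‖psiFn n ε ν g L t x‖ₑ ^ 2) ∂ν) := by
        rw [lintegral_const_mul' _ _ (by simp [hL0]), lintegral_const_mul' _ _ hLt]
    _ ≤ ((ENNReal.ofReal L)⁻¹) ^ 2 * (ENNReal.ofReal L *
          (ENNReal.ofReal C ^ 2 * (ENNReal.ofReal L * ∫⁻ x, ‖g x‖ₑ ^ 2 ∂ν))) :=
        mul_le_mul_right (mul_le_mul_right hc _) _
    _ = ENNReal.ofReal C ^ 2 * ∫⁻ x, ‖g x‖ₑ ^ 2 ∂ν := by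
        have e : ((ENNReal.ofReal L)⁻¹) ^ 2 * (ENNReal.ofReal L *
            (ENNReal.ofReal C ^ 2 * (ENNReal.ofReal L * ∫⁻ x, ‖g x‖ₑ ^ 2 ∂ν))) =
            ((ENNReal.ofReal L)⁻¹ * ENNReal.ofReal L) ^ 2 *
              (ENNReal.ofReal C ^ 2 * ∫⁻ x, ‖g x‖ₑ ^ 2 ∂ν) := by ring
        rw [e, ENNReal.inv_mul_cancel hL0 hLt, one_pow, one_mul]

/-- The limit operator `T g (x) = ∫ slOp s x ds`. -/
noncomputable def slT (n : ℕ) (ε : ℝ) (ν : Measure E) (g : E → ℝ) (x : E) : E :=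
  ∫ s, slOp n ε ν g s x

theorem stronglyMeasurable_slT (n : ℕ) (ε : ℝ) (ν : Measure E) [SFinite ν] (g : E → ℝ)
    (hgm : StronglyMeasurable g) : StronglyMeasurable (slT n ε ν g) := by
  have h := (stronglyMeasurable_slOp n ε ν g hgm).comp_measurable
    (measurable_swap (α := E) (β := ℝ))
  exact MeasureTheory.StronglyMeasurable.integral_prod_right
    (ν := (volume : Measure ℝ)) (f := fun (x : E) (s : ℝ) => slOp n ε ν g s x) h

theorem stronglyMeasurable_avg (n : ℕ) (ε : ℝ) (ν : Measure E) [SFinite ν] (g : E → ℝ)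
    (hgm : StronglyMeasurable g) (L : ℝ) (hL : 0 ≤ L) :
    StronglyMeasurable (fun x : E => L⁻¹ • ∫ t in (0 : ℝ)..L, psiFn n ε ν g L t x) := by
  have h := (stronglyMeasurable_psiFn n ε ν g hgm L hL).comp_measurable
    (measurable_swap (α := E) (β := ℝ))
  have h2 : StronglyMeasurable (fun x : E => ∫ t, psiFn n ε ν g L t x
      ∂((volume : Measure ℝ).restrict (Set.Ioc 0 L))) :=
    MeasureTheory.StronglyMeasurable.integral_prod_right
      (ν := (volume : Measure ℝ).restrict (Set.Ioc 0 L))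
      (f := fun (x : E) (t : ℝ) => psiFn n ε ν g L t x) h
  have h3 : (fun x : E => L⁻¹ • ∫ t in (0 : ℝ)..L, psiFn n ε ν g L t x) =
      fun x : E => L⁻¹ • ∫ t, psiFn n ε ν g L t x
        ∂((volume : Measure ℝ).restrict (Set.Ioc 0 L)) := by
    ext x
    rw [intervalIntegral.integral_of_le hL]
  rw [h3]
  exact h2.const_smul _

theorem tendsto_avg_slT (n : ℕ) (hn : 1 ≤ n) (ε : ℝ) (hε : 0 < ε) (ν : Measure E) [SFinite ν]
    (g : E → ℝ) (hg : Integrable g ν) (hgm : StronglyMeasurable g) (x : E) :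
    Tendsto (fun j : ℕ => ((j : ℝ) + 1)⁻¹ •
      ∫ t in (0 : ℝ)..((j : ℝ) + 1), psiFn n ε ν g ((j : ℝ) + 1) t x) atTop
      (𝓝 (slT n ε ν g x)) :=
  tendsto_avg (fun s => slOp n ε ν g s x) (integrable_slOp n hn ε hε ν g hg hgm x)

/-- `L²` bound for the limit operator. -/
theorem lintegral_sq_slT_le (n : ℕ) (hn : 1 ≤ n) (ε : ℝ) (hε : 0 < ε) (ν : Measure E)
    [SFinite ν] (C : ℝ)
    (hR : ∀ f : WithLp 2 (ℝ × E) → ℝ, MemLp f 2 (lineProd ν) →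
      (∀ p : WithLp 2 (ℝ × E), IntegrableOn (fun q => f q • rieszKernel (n + 1) (p - q))
        {q : WithLp 2 (ℝ × E) | ε < dist p q} (lineProd ν)) ∧
      eLpNorm (truncRiesz (n + 1) (lineProd ν) ε f) 2 (lineProd ν) ≤
        ENNReal.ofReal C * eLpNorm f 2 (lineProd ν))
    (g : E → ℝ) (hg : Integrable g ν) (hg2 : MemLp g 2 ν) (hgm : StronglyMeasurable g) :
    ∫⁻ x, ‖slT n ε ν g x‖ₑ ^ 2 ∂ν ≤ ENNReal.ofReal C ^ 2 * ∫⁻ x, ‖g x‖ₑ ^ 2 ∂ν := by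
  set F : ℕ → E → ℝ≥0∞ := fun j x => ‖((j : ℝ) + 1)⁻¹ •
      ∫ t in (0 : ℝ)..((j : ℝ) + 1), psiFn n ε ν g ((j : ℝ) + 1) t x‖ₑ ^ 2 with hF
  have hFm : ∀ j, AEMeasurable (F j) ν := by
    intro j
    exact ((stronglyMeasurable_avg n ε ν g hgm ((j : ℝ) + 1)
      (by positivity)).measurable.enorm.pow_const 2).aemeasurable
  have hlim : ∀ x : E, liminf (fun j => F j x) atTop = ‖slT n ε ν g x‖ₑ ^ 2 := by
    intro x
    have h1 := tendsto_avg_slT n hn ε hε ν g hg hgm x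
    have h2 : Tendsto (fun j => F j x) atTop (𝓝 (‖slT n ε ν g x‖ₑ ^ 2)) :=
      ((ENNReal.continuous_pow 2).tendsto _).comp ((continuous_enorm.tendsto _).comp h1)
    exact h2.liminf_eq
  calc ∫⁻ x, ‖slT n ε ν g x‖ₑ ^ 2 ∂ν = ∫⁻ x, liminf (fun j => F j x) atTop ∂ν := by
        simp_rw [hlim]
    _ ≤ liminf (fun j => ∫⁻ x, F j x ∂ν) atTop := lintegral_liminf_le' hFm
    _ ≤ ENNReal.ofReal C ^ 2 * ∫⁻ x, ‖g x‖ₑ ^ 2 ∂ν := by
        apply Filter.liminf_le_of_frequently_le'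
        apply Filter.Frequently.of_forall
        intro j
        exact lintegral_sq_avg_le n ε ν C hR g hg2 hgm ((j : ℝ) + 1) (by positivity)

end avgarg

end Vale.Agent.H32
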