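import Vale.Agent.H32.DS.Defs

/-!
Basic facts about the product measure `lineProd ν = L¹ ⊗ ν` on `WithLp 2 (ℝ × E)`.
-/

open MeasureTheory Set Filter Topology
open scoped NNReal ENNReal

set_option linter.unusedSectionVars false
set_option linter.unusedVariables false

namespace Vale.Agent.H32

section metric

variable {E : Type*} [NormedAddCommGroup E] [InnerProductSpace ℝ E]

theorem dist_toLp_sq (t t' : ℝ) (x y : E) :
    dist (WithLp.toLp 2 (t, x)) (WithLp.toLp 2 (t', y)) ^ 2 = (t - t') ^ 2 + dist x y ^ 2 := by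
  rw [WithLp.prod_dist_eq_of_L2, Real.sq_sqrt (by positivity)]
  simp [Real.dist_eq, sq_abs]

theorem norm_toLp_sq (s : ℝ) (z : E) :
    ‖(WithLp.toLp 2 (s, z) : WithLp 2 (ℝ × E))‖ ^ 2 = s ^ 2 + ‖z‖ ^ 2 := by
  rw [WithLp.prod_norm_sq_eq_of_L2]
  simp [sq_abs]

theorem abs_le_norm_toLp (s : ℝ) (z : E) :
    |s| ≤ ‖(WithLp.toLp 2 (s, z) : WithLp 2 (ℝ × E))‖ := by
  have h := norm_toLp_sq s z
  have h2 : |s| ^ 2 ≤ ‖(WithLp.toLp 2 (s, z) : WithLp 2 (ℝ × E))‖ ^ 2 := by
    rw [h, sq_abs]; nlinarith [sq_nonneg ‖z‖]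
  exact le_of_sq_le_sq h2 (norm_nonneg _) |> fun h' => by simpa using abs_le_of_sq_le_sq' h2 (norm_nonneg _) |>.2

theorem norm_le_norm_toLp (s : ℝ) (z : E) :
    ‖z‖ ≤ ‖(WithLp.toLp 2 (s, z) : WithLp 2 (ℝ × E))‖ := by
  have h := norm_toLp_sq s z
  have h2 : ‖z‖ ^ 2 ≤ ‖(WithLp.toLp 2 (s, z) : WithLp 2 (ℝ × E))‖ ^ 2 := by
    rw [h]; nlinarith [sq_nonneg s]
  exact le_of_sq_le_sq h2 (norm_nonneg _)

/-- A ball of the product is contained in the product of balls. -/
theorem ball_subset_image_prod (t : ℝ) (x : E) (r : ℝ) :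
    Metric.ball (WithLp.toLp 2 (t, x)) r ⊆
      WithLp.toLp 2 '' (Metric.ball t r ×ˢ Metric.ball x r) := by
  intro p hp
  refine ⟨WithLp.ofLp p, ?_, by simp⟩
  have hpe : (WithLp.toLp 2 (p.fst, p.snd) : WithLp 2 (ℝ × E)) = p := rfl
  have hp' : dist (WithLp.toLp 2 (p.fst, p.snd)) (WithLp.toLp 2 (t, x)) < r := by
    rw [hpe]; exact hp
  have hr : 0 < r := lt_of_le_of_lt dist_nonneg hp'
  have hsq := dist_toLp_sq p.fst t p.snd x
  have h1 : dist (WithLp.toLp 2 (p.fst, p.snd)) (WithLp.toLp 2 (t, x)) ^ 2 < r ^ 2 :=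
    pow_lt_pow_left₀ hp' dist_nonneg two_ne_zero
  constructor
  · show dist p.fst t < r
    rw [Real.dist_eq]
    have : |p.fst - t| ^ 2 < r ^ 2 := by
      rw [sq_abs]; nlinarith [sq_nonneg (dist p.snd x)]
    exact lt_of_pow_lt_pow_left₀ 2 hr.le this
  · show dist p.snd x < r
    have : dist p.snd x ^ 2 < r ^ 2 := by nlinarith [sq_nonneg (p.fst - t)]
    exact lt_of_pow_lt_pow_left₀ 2 hr.le this

/-- A product of balls is contained in a ball of the product. -/
theorem image_prod_subset_ball (t : ℝ) (x : E) (a b r : ℝ) (ha : 0 ≤ a) (hb : 0 ≤ b)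
    (hr : 0 ≤ r) (hab : a ^ 2 + b ^ 2 ≤ r ^ 2) :
    WithLp.toLp 2 '' (Metric.ball t a ×ˢ Metric.ball x b) ⊆
      Metric.ball (WithLp.toLp 2 (t, x)) r := by
  rintro p ⟨⟨t', y⟩, ⟨ht', hy⟩, rfl⟩
  rw [Metric.mem_ball]
  have hsq := dist_toLp_sq t' t y x
  have h1 : |t' - t| < a := by simpa [Real.dist_eq] using ht'
  have h2 : dist y x < b := hy
  have h3 : (t' - t) ^ 2 < a ^ 2 := by
    rw [← sq_abs]; exact pow_lt_pow_left₀ h1 (abs_nonneg _) two_ne_zero
  have h4 : dist y x ^ 2 < b ^ 2 := pow_lt_pow_left₀ h2 dist_nonneg two_ne_zero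
  have h5 : dist (WithLp.toLp 2 (t', y)) (WithLp.toLp 2 (t, x)) ^ 2 < r ^ 2 := by
    rw [hsq]; linarith
  exact lt_of_pow_lt_pow_left₀ 2 hr h5

end metric

section basic

variable {E : Type*} [NormedAddCommGroup E] [InnerProductSpace ℝ E] [MeasurableSpace E]

theorem lineProd_apply (ν : Measure E) (S : Set (WithLp 2 (ℝ × E))) :
    lineProd ν S = ((volume : Measure ℝ).prod ν) (WithLp.toLp 2 ⁻¹' S) := by
  unfold lineProd
  exact (MeasurableEquiv.toLp 2 (ℝ × E)).map_apply S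

theorem lineProd_image_prod (ν : Measure E) [SFinite ν] (A : Set ℝ) (B : Set E) :
    lineProd ν (WithLp.toLp 2 '' (A ×ˢ B)) = volume A * ν B := by
  rw [lineProd_apply]
  have : (WithLp.toLp 2 ⁻¹' (WithLp.toLp 2 '' (A ×ˢ B)) : Set (ℝ × E)) = A ×ˢ B :=
    Set.preimage_image_eq _ (WithLp.toLp_injective 2)
  rw [this, Measure.prod_prod]

theorem lineProd_ball_le (ν : Measure E) [SFinite ν] (t : ℝ) (x : E) (r : ℝ) :
    lineProd ν (Metric.ball (WithLp.toLp 2 (t, x)) r) ≤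
      ENNReal.ofReal (2 * r) * ν (Metric.ball x r) := by
  calc lineProd ν (Metric.ball (WithLp.toLp 2 (t, x)) r)
      ≤ lineProd ν (WithLp.toLp 2 '' (Metric.ball t r ×ˢ Metric.ball x r)) :=
        measure_mono (ball_subset_image_prod t x r)
    _ = ENNReal.ofReal (2 * r) * ν (Metric.ball x r) := by
        rw [lineProd_image_prod, Real.volume_ball]

theorem le_lineProd_ball (ν : Measure E) [SFinite ν] (t : ℝ) (x : E) (a r : ℝ)
    (ha : 0 ≤ a) (hr : 0 ≤ r) (hab : a ^ 2 + a ^ 2 ≤ r ^ 2) (B : Set E)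
    (hB : B ⊆ Metric.ball x a) :
    ENNReal.ofReal (2 * a) * ν B ≤
      lineProd ν (Metric.ball (WithLp.toLp 2 (t, x)) r ∩ WithLp.toLp 2 '' (Set.univ ×ˢ B)) := by
  calc ENNReal.ofReal (2 * a) * ν B
      = lineProd ν (WithLp.toLp 2 '' (Metric.ball t a ×ˢ B)) := by
        rw [lineProd_image_prod, Real.volume_ball]
    _ ≤ lineProd ν (Metric.ball (WithLp.toLp 2 (t, x)) r ∩
          WithLp.toLp 2 '' (Set.univ ×ˢ B)) := by
        apply measure_mono
        intro p hp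
        refine ⟨image_prod_subset_ball t x a a r ha ha hr hab ?_, ?_⟩
        · exact Set.image_mono (Set.prod_mono le_rfl hB) hp
        · exact Set.image_mono (Set.prod_mono (Set.subset_univ _) le_rfl) hp

theorem mem_support_lineProd_iff (ν : Measure E) [SFinite ν] (t : ℝ) (x : E) :
    WithLp.toLp 2 (t, x) ∈ (lineProd ν).support ↔ x ∈ ν.support := by
  rw [Metric.nhds_basis_ball.mem_measureSupport, Metric.nhds_basis_ball.mem_measureSupport]
  constructor
  · intro h r hr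
    have h1 := h r hr
    have h2 := lineProd_ball_le ν t x r
    by_contra hcon
    have h0 : ν (Metric.ball x r) = 0 := nonpos_iff_eq_zero.mp (not_lt.mp hcon)
    rw [h0, mul_zero] at h2
    exact h1.ne' (nonpos_iff_eq_zero.mp h2)
  · intro h r hr
    have h1 := h (r / 2) (by positivity)
    have h2 := le_lineProd_ball ν t x (r / 2) r (by positivity) hr.le (by nlinarith)
      (Metric.ball x (r / 2)) le_rfl
    have h3 : 0 < ENNReal.ofReal (2 * (r / 2)) * ν (Metric.ball x (r / 2)) :=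
      ENNReal.mul_pos (by simpa using hr) h1.ne'
    exact lt_of_lt_of_le h3 (h2.trans (measure_mono Set.inter_subset_left))

theorem ediam_support_lineProd (ν : Measure E) [SFinite ν] (hne : ν.support.Nonempty) :
    Metric.ediam (lineProd ν).support = ⊤ := by
  obtain ⟨x, hx⟩ := hne
  apply ENNReal.eq_top_of_forall_nnreal_le
  intro T
  have h0 : WithLp.toLp 2 ((0 : ℝ), x) ∈ (lineProd ν).support :=
    (mem_support_lineProd_iff ν 0 x).mpr hx
  have hT : WithLp.toLp 2 ((T : ℝ), x) ∈ (lineProd ν).support :=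
    (mem_support_lineProd_iff ν T x).mpr hx
  have hle := Metric.edist_le_ediam_of_mem hT h0
  have hd : dist (WithLp.toLp 2 ((T : ℝ), x)) (WithLp.toLp 2 ((0 : ℝ), x)) = T := by
    have hsq := dist_toLp_sq (T : ℝ) 0 x x
    simp only [sub_zero, dist_self, ne_eq, OfNat.ofNat_ne_zero, not_false_eq_true, zero_pow,
      add_zero] at hsq
    exact (sq_eq_sq₀ dist_nonneg T.coe_nonneg).mp hsq
  rw [edist_dist, hd, ENNReal.ofReal_coe_nnreal] at hle
  exact hle

end basic

end Vale.Agent.H32
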