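import Vale.Agent.H32.DS.Avg

/-!
Convergence of the integrals defining the truncated Riesz transforms of an upper regular measure,
and measurability of the truncated transforms.
-/

open MeasureTheory Set Filter Topology
open scoped NNReal ENNReal

set_option linter.unusedSectionVars false
set_option linter.unusedVariables false

namespace Vale.Agent.H32

section conv

variable {E : Type*} [NormedAddCommGroup E] [InnerProductSpace ℝ E] [MeasurableSpace E]
  [BorelSpace E] [FiniteDimensional ℝ E]

theorem norm_rieszKernel (n : ℕ) (z : E) (hz : z ≠ 0) :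
    ‖rieszKernel n z‖ = (‖z‖ ^ n)⁻¹ := by
  unfold rieszKernel
  have h : 0 < ‖z‖ := norm_pos_iff.mpr hz
  rw [norm_smul, norm_inv, norm_pow, norm_norm, pow_succ, mul_inv, mul_assoc,
    inv_mul_cancel₀ h.ne', mul_one]

theorem norm_rieszKernel_le (n : ℕ) (ε : ℝ) (hε : 0 < ε) (z : E) (hz : ε < ‖z‖) :
    ‖rieszKernel n z‖ ≤ (ε ^ n)⁻¹ := by
  have hz0 : z ≠ 0 := by
    intro h; rw [h, norm_zero] at hz; linarith
  rw [norm_rieszKernel n z hz0]
  exact inv_anti₀ (by positivity) (pow_le_pow_left₀ hε.le hz.le n)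

theorem measurable_rieszKernel (n : ℕ) : Measurable (rieszKernel (F := E) n) := by
  unfold rieszKernel
  exact ((measurable_norm.pow_const _).inv).smul measurable_id

/-- Dyadic shell estimate: the truncated kernel is square integrable with respect to an upper
regular measure. -/
theorem lintegral_sq_rieszKernel_lt_top (n : ℕ) (hn : 1 ≤ n) (ν : Measure E) (A : ℝ) (hA : 0 ≤ A)
    (x : E) (hup : ∀ r : ℝ, 0 < r → ν (Metric.closedBall x r) ≤ ENNReal.ofReal (A * r ^ n))
    (ε : ℝ) (hε : 0 < ε) :
    ∫⁻ y in {y : E | ε < dist x y}, ‖rieszKernel n (x - y)‖ₑ ^ 2 ∂ν < ⊤ := by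
  -- pointwise domination by a sum over dyadic shells
  set a : ℕ → ℝ := fun k => ((2 ^ k * ε) ^ n)⁻¹ ^ 2 with ha
  set B : ℕ → Set E := fun k => Metric.closedBall x (2 ^ (k + 1) * ε) with hB
  have hpt : ∀ y ∈ {y : E | ε < dist x y}, ‖rieszKernel n (x - y)‖ₑ ^ 2 ≤
      ∑' k : ℕ, ENNReal.ofReal (a k) * (B k).indicator (fun _ => (1 : ℝ≥0∞)) y := by
    intro y hy
    have hy' : ε < dist x y := hy
    have hd : 1 ≤ dist x y / ε := by rw [le_div_iff₀ hε]; linarith
    obtain ⟨k, hk1, hk2⟩ := exists_nat_pow_near hd (one_lt_two)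
    have hk1' : 2 ^ k * ε ≤ dist x y := by rwa [le_div_iff₀ hε] at hk1
    have hk2' : dist x y < 2 ^ (k + 1) * ε := by rwa [div_lt_iff₀ hε] at hk2
    have hmem : y ∈ B k := by
      rw [hB, Metric.mem_closedBall, dist_comm]; exact hk2'.le
    have hxy : ε < ‖x - y‖ := by rwa [← dist_eq_norm]
    have hxy0 : x - y ≠ 0 := by
      intro h; rw [h, norm_zero] at hxy; linarith
    have hnorm : ‖rieszKernel n (x - y)‖ ≤ ((2 ^ k * ε) ^ n)⁻¹ := by
      rw [norm_rieszKernel n _ hxy0]
      apply inv_anti₀ (by positivity)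
      apply pow_le_pow_left₀ (by positivity)
      rwa [← dist_eq_norm]
    have h1 : ‖rieszKernel n (x - y)‖ₑ ^ 2 ≤ ENNReal.ofReal (a k) := by
      rw [← ofReal_norm, ← ENNReal.ofReal_pow (norm_nonneg _)]
      apply ENNReal.ofReal_le_ofReal
      exact pow_le_pow_left₀ (norm_nonneg _) hnorm 2
    calc ‖rieszKernel n (x - y)‖ₑ ^ 2 ≤ ENNReal.ofReal (a k) := h1
      _ = ENNReal.ofReal (a k) * (B k).indicator (fun _ => (1 : ℝ≥0∞)) y := by
          rw [Set.indicator_of_mem hmem, mul_one]
      _ ≤ ∑' k : ℕ, ENNReal.ofReal (a k) * (B k).indicator (fun _ => (1 : ℝ≥0∞)) y :=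
          ENNReal.le_tsum k
  have hSm : MeasurableSet {y : E | ε < dist x y} :=
    (isOpen_lt continuous_const (continuous_const.dist continuous_id)).measurableSet
  calc ∫⁻ y in {y : E | ε < dist x y}, ‖rieszKernel n (x - y)‖ₑ ^ 2 ∂ν
      ≤ ∫⁻ y in {y : E | ε < dist x y},
          ∑' k : ℕ, ENNReal.ofReal (a k) * (B k).indicator (fun _ => (1 : ℝ≥0∞)) y ∂ν :=
        setLIntegral_mono' hSm hpt
    _ ≤ ∫⁻ y, ∑' k : ℕ, ENNReal.ofReal (a k) * (B k).indicator (fun _ => (1 : ℝ≥0∞)) y ∂ν :=
        lintegral_mono' Measure.restrict_le_self le_rfl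
    _ = ∑' k : ℕ, ∫⁻ y, ENNReal.ofReal (a k) * (B k).indicator (fun _ => (1 : ℝ≥0∞)) y ∂ν := by
        rw [lintegral_tsum]
        intro k
        exact (measurable_const.mul
          (measurable_const.indicator Metric.isClosed_closedBall.measurableSet)).aemeasurable
    _ = ∑' k : ℕ, ENNReal.ofReal (a k) * ν (B k) := by
        congr 1
        ext k
        rw [lintegral_const_mul' _ _ ENNReal.ofReal_ne_top,
          lintegral_indicator Metric.isClosed_closedBall.measurableSet, setLIntegral_const,
          one_mul]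
    _ ≤ ∑' k : ℕ, ENNReal.ofReal (A * 2 ^ n * (ε ^ n)⁻¹ * (1 / 2) ^ k) := by
        apply ENNReal.tsum_le_tsum
        intro k
        have h2k : (0 : ℝ) < 2 ^ k := by positivity
        calc ENNReal.ofReal (a k) * ν (B k)
            ≤ ENNReal.ofReal (a k) * ENNReal.ofReal (A * (2 ^ (k + 1) * ε) ^ n) :=
              mul_le_mul_right (hup _ (by positivity)) _
          _ = ENNReal.ofReal (a k * (A * (2 ^ (k + 1) * ε) ^ n)) := by
              rw [← ENNReal.ofReal_mul (by positivity)]
          _ ≤ ENNReal.ofReal (A * 2 ^ n * (ε ^ n)⁻¹ * (1 / 2) ^ k) := by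
              apply ENNReal.ofReal_le_ofReal
              have hεn : 0 < ε ^ n := by positivity
              have h2kn : 0 < (2 ^ k : ℝ) ^ n := by positivity
              have e1 : a k * (A * (2 ^ (k + 1) * ε) ^ n) =
                  A * 2 ^ n * (ε ^ n)⁻¹ * ((2 ^ k : ℝ) ^ n)⁻¹ := by
                have e2 : ((2 : ℝ) ^ (k + 1) * ε) ^ n = (2 ^ k) ^ n * 2 ^ n * ε ^ n := by
                  rw [pow_succ, mul_pow, mul_pow]
                have e3 : ((2 : ℝ) ^ k * ε) ^ n = (2 ^ k) ^ n * ε ^ n := mul_pow _ _ _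
                rw [ha]
                simp only
                rw [e2, e3]
                field_simp
              rw [e1]
              have h3 : ((2 ^ k : ℝ) ^ n)⁻¹ ≤ (1 / 2) ^ k := by
                rw [one_div, inv_pow]
                apply inv_anti₀ h2k
                calc (2 : ℝ) ^ k = (2 ^ k) ^ 1 := by ring
                  _ ≤ (2 ^ k) ^ n := pow_le_pow_right₀ (one_le_pow₀ (by norm_num)) hn
              exact mul_le_mul_of_nonneg_left h3 (by positivity)
    _ < ⊤ := by
        have hsum : Summable (fun k : ℕ => A * 2 ^ n * (ε ^ n)⁻¹ * (1 / 2 : ℝ) ^ k) :=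
          summable_geometric_two.mul_left _
        rw [← ENNReal.ofReal_tsum_of_nonneg (fun k => by positivity) hsum]
        exact ENNReal.ofReal_lt_top

/-- The integral defining the truncated Riesz transform of an `L²` function converges. -/
theorem integrableOn_riesz (n : ℕ) (hn : 1 ≤ n) (ν : Measure E) (A : ℝ) (hA : 0 ≤ A)
    (hup : ∀ (x : E) (r : ℝ), 0 < r → ν (Metric.closedBall x r) ≤ ENNReal.ofReal (A * r ^ n))
    (g : E → ℝ) (hg2 : MemLp g 2 ν) (ε : ℝ) (hε : 0 < ε) (x : E) :
    IntegrableOn (fun y => g y • rieszKernel n (x - y)) {y : E | ε < dist x y} ν := by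
  have hK : MemLp (fun y => rieszKernel n (x - y)) 2 (ν.restrict {y : E | ε < dist x y}) := by
    refine ⟨((measurable_rieszKernel n).comp
      (measurable_const.sub measurable_id)).aestronglyMeasurable, ?_⟩
    have h1 : eLpNorm (fun y => rieszKernel n (x - y)) 2
        (ν.restrict {y : E | ε < dist x y}) ^ 2 < ⊤ := by
      rw [eLpNorm_two_sq]
      exact lintegral_sq_rieszKernel_lt_top n hn ν A hA x (hup x) ε hε
    by_contra hcon
    rw [not_lt, top_le_iff] at hcon
    rw [hcon] at h1
    simp at h1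
  have hg' : MemLp g 2 (ν.restrict {y : E | ε < dist x y}) := hg2.restrict _
  have := MemLp.smul (r := 1) hK hg'
  exact memLp_one_iff_integrable.mp this

/-- Measurability of the truncated Riesz transform of a measurable function. -/
theorem stronglyMeasurable_truncRiesz (n : ℕ) (ν : Measure E) [SFinite ν] (ε : ℝ) (g : E → ℝ)
    (hgm : StronglyMeasurable g) : StronglyMeasurable (truncRiesz n ν ε g) := by
  have hS : MeasurableSet {q : E × E | ε < dist q.1 q.2} :=
    (isOpen_lt continuous_const (continuous_fst.dist continuous_snd)).measurableSet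
  have hf : StronglyMeasurable (fun q : E × E =>
      Set.indicator {q : E × E | ε < dist q.1 q.2}
        (fun q => g q.2 • rieszKernel n (q.1 - q.2)) q) := by
    apply StronglyMeasurable.indicator _ hS
    exact ((hgm.measurable.comp measurable_snd).smul
      ((measurable_rieszKernel n).comp (measurable_fst.sub measurable_snd))).stronglyMeasurable
  have h2 := hf.integral_prod_right' (ν := ν)
  have h3 : truncRiesz n ν ε g = fun x : E => ∫ y, Set.indicator {q : E × E | ε < dist q.1 q.2}
      (fun q => g q.2 • rieszKernel n (q.1 - q.2)) (x, y) ∂ν := by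
    ext x
    unfold truncRiesz
    have hSx : MeasurableSet {y : E | ε < dist x y} :=
      (isOpen_lt continuous_const (continuous_const.dist continuous_id)).measurableSet
    rw [← integral_indicator hSx]
    congr 1
  rw [h3]
  exact h2

end conv

end Vale.Agent.H32
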