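import Mathlib

/-!
Definitions for P120 (David-Semmes problem for Riesz transforms), for measures on a real
normed space `F` (in the problem: `F = ℝ^d` with the Euclidean norm).
-/

open MeasureTheory Set
open scoped NNReal ENNReal

namespace Vale.Agent.H32

section defs

variable {F : Type*} [NormedAddCommGroup F] [NormedSpace ℝ F] [MeasurableSpace F]

/-- `μ` is `n`-Ahlfors-David regular: there is `C ≥ 1` with
`C⁻¹ r^n ≤ μ (B(x, r)) ≤ C r^n` for all `x` in the support of `μ` and all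
`0 < r ≤ diam (supp μ)` (the diameter may be infinite). -/
def IsADRegular (n : ℕ) (μ : Measure F) : Prop :=
  ∃ C : ℝ, 1 ≤ C ∧ ∀ x ∈ μ.support, ∀ r : ℝ, 0 < r →
    ENNReal.ofReal r ≤ Metric.ediam μ.support →
      ENNReal.ofReal (C⁻¹ * r ^ n) ≤ μ (Metric.ball x r) ∧
        μ (Metric.ball x r) ≤ ENNReal.ofReal (C * r ^ n)

/-- The `n`-dimensional Riesz kernel `K_n(z) = z / |z|^(n+1)`. -/
noncomputable def rieszKernel (n : ℕ) (z : F) : F := (‖z‖ ^ (n + 1))⁻¹ • z

/-- The truncated `n`-dimensional Riesz transform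
`R_{μ,ε} f (x) = ∫_{|x - y| > ε} K_n(x - y) f(y) dμ(y)`. -/
noncomputable def truncRiesz (n : ℕ) (μ : Measure F) (ε : ℝ) (f : F → ℝ) (x : F) : F :=
  ∫ y in {y : F | ε < dist x y}, f y • rieszKernel n (x - y) ∂μ

/-- The `n`-dimensional Riesz transform is bounded on `L²(μ)`: there is `C` such that for all
real `f ∈ L²(μ)` and all `ε > 0` the integral defining `R_{μ,ε} f (x)` converges (absolutely, at
every point `x`) and `‖R_{μ,ε} f‖_{L²(μ)} ≤ C ‖f‖_{L²(μ)}`. -/
def IsRieszBounded (n : ℕ) (μ : Measure F) : Prop :=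
  ∃ C : ℝ, ∀ f : F → ℝ, MemLp f 2 μ → ∀ ε : ℝ, 0 < ε →
    (∀ x : F, IntegrableOn (fun y => f y • rieszKernel n (x - y)) {y : F | ε < dist x y} μ) ∧
      eLpNorm (truncRiesz n μ ε f) 2 μ ≤ ENNReal.ofReal C * eLpNorm f 2 μ

/-- `μ` is uniformly `n`-rectifiable (big pieces of Lipschitz images): there are `θ > 0` and `M`
such that for every `x` in the support of `μ` and every `0 < r ≤ diam (supp μ)` some map
`g : ℝ^n → F` that is `M`-Lipschitz on the ball `B(0, r)` satisfies
`μ (B(x, r) ∩ g (B(0, r))) ≥ θ r^n`. -/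
def IsUniformlyRectifiable (n : ℕ) (μ : Measure F) : Prop :=
  ∃ θ : ℝ, 0 < θ ∧ ∃ M : ℝ≥0, ∀ x ∈ μ.support, ∀ r : ℝ, 0 < r →
    ENNReal.ofReal r ≤ Metric.ediam μ.support →
      ∃ g : EuclideanSpace ℝ (Fin n) → F, LipschitzOnWith M g (Metric.ball 0 r) ∧
        ENNReal.ofReal (θ * r ^ n) ≤ μ (Metric.ball x r ∩ g '' Metric.ball 0 r)

end defs

section lineProd

variable {E : Type*} [NormedAddCommGroup E] [InnerProductSpace ℝ E] [MeasurableSpace E]

/-- The product `L¹ ⊗ ν` of Lebesgue measure on the line with a measure `ν` on `E`, as a measure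
on the Euclidean (`ℓ²`) product `ℝ × E`. -/
noncomputable def lineProd (ν : Measure E) : Measure (WithLp 2 (ℝ × E)) :=
  ((volume : Measure ℝ).prod ν).map (WithLp.toLp 2)

end lineProd

end Vale.Agent.H32
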