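import Vale.Agent.H32.DS.Basic

/-!
The sliced kernel: the `E`-component of the truncated `(n+1)`-dimensional Riesz kernel of
`ℝ × E`, and its integral along the line factor.
-/

open MeasureTheory Set Filter Topology
open scoped NNReal ENNReal

set_option linter.unusedSectionVars false
set_option linter.unusedVariables false

namespace Vale.Agent.H32

section kernel

variable {E : Type*} [NormedAddCommGroup E] [InnerProductSpace ℝ E]

/-- The `E`-component of the truncated `(n+1)`-dimensional Riesz kernel of `ℝ × E` at `(s, z)`. -/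
noncomputable def slKer (n : ℕ) (ε : ℝ) (s : ℝ) (z : E) : E :=
  if ε < ‖(WithLp.toLp 2 (s, z) : WithLp 2 (ℝ × E))‖ then
    (‖(WithLp.toLp 2 (s, z) : WithLp 2 (ℝ × E))‖ ^ (n + 2))⁻¹ • z else 0

/-- An integrable majorant of the sliced kernel. -/
noncomputable def slDom (n : ℕ) (ε : ℝ) (s : ℝ) : ℝ :=
  2 * (ε ^ (n + 1))⁻¹ * (1 + (s / ε) ^ 2)⁻¹

theorem slDom_nonneg (n : ℕ) (ε : ℝ) (hε : 0 < ε) (s : ℝ) : 0 ≤ slDom n ε s := by
  unfold slDom; positivity

theorem norm_slKer_le (n : ℕ) (hn : 1 ≤ n) (ε : ℝ) (hε : 0 < ε) (s : ℝ) (z : E) :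
    ‖slKer n ε s z‖ ≤ slDom n ε s := by
  unfold slKer
  split_ifs with h
  · set N : ℝ := ‖(WithLp.toLp 2 (s, z) : WithLp 2 (ℝ × E))‖ with hN
    have hNpos : 0 < N := lt_trans hε h
    have hzN : ‖z‖ ≤ N := norm_le_norm_toLp s z
    have hsN : |s| ≤ N := abs_le_norm_toLp s z
    obtain ⟨m, rfl⟩ : ∃ m, n = m + 1 := ⟨n - 1, by omega⟩
    have h1 : ‖(N ^ (m + 1 + 2))⁻¹ • z‖ ≤ (N ^ (m + 1 + 1))⁻¹ := by
      rw [norm_smul, norm_inv, norm_pow, Real.norm_of_nonneg hNpos.le]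
      have e : (N ^ (m + 1 + 1))⁻¹ = (N ^ (m + 1 + 2))⁻¹ * N := by
        rw [pow_succ N (m + 1 + 1), mul_inv, mul_assoc, inv_mul_cancel₀ hNpos.ne', mul_one]
      rw [e]
      exact mul_le_mul_of_nonneg_left hzN (by positivity)
    refine h1.trans ?_
    unfold slDom
    have hkey : ε ^ (m + 1 + 1) * (1 + (s / ε) ^ 2) ≤ 2 * N ^ (m + 1 + 1) := by
      have e1 : ε ^ (m + 1 + 1) * (1 + (s / ε) ^ 2) = ε ^ m * (ε ^ 2 + s ^ 2) := by
        field_simp
        ring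
      rw [e1]
      have e2 : N ^ (m + 1 + 1) = N ^ m * N ^ 2 := by ring
      rw [e2]
      have h3 : ε ^ m ≤ N ^ m := pow_le_pow_left₀ hε.le h.le m
      have h4 : ε ^ 2 ≤ N ^ 2 := pow_le_pow_left₀ hε.le h.le 2
      have h5 : s ^ 2 ≤ N ^ 2 := by
        rw [← sq_abs]; exact pow_le_pow_left₀ (abs_nonneg s) hsN 2
      have h6 : ε ^ m * (ε ^ 2 + s ^ 2) ≤ N ^ m * (2 * N ^ 2) :=
        mul_le_mul h3 (by linarith) (by positivity) (by positivity)
      linarith
    have hpos1 : 0 < N ^ (m + 1 + 1) := by positivity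
    have hpos2 : 0 < ε ^ (m + 1 + 1) := by positivity
    have hpos3 : 0 < 1 + (s / ε) ^ 2 := by positivity
    rw [inv_le_iff_one_le_mul₀ hpos1]
    have e3 : 2 * (ε ^ (m + 1 + 1))⁻¹ * (1 + (s / ε) ^ 2)⁻¹ * N ^ (m + 1 + 1) =
        (2 * N ^ (m + 1 + 1)) / (ε ^ (m + 1 + 1) * (1 + (s / ε) ^ 2)) := by
      field_simp
    rw [e3, le_div_iff₀ (by positivity)]
    linarith
  · rw [norm_zero]; exact slDom_nonneg n ε hε s

theorem integrable_slDom (n : ℕ) (ε : ℝ) (hε : 0 < ε) : Integrable (slDom n ε) := by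
  unfold slDom
  have h1 : Integrable (fun s : ℝ => (1 + (s / ε) ^ 2)⁻¹) :=
    integrable_inv_one_add_sq.comp_div hε.ne'
  exact h1.const_mul _

theorem integral_slDom (n : ℕ) (ε : ℝ) (hε : 0 < ε) :
    ∫ s, slDom n ε s = 2 * Real.pi * (ε ^ n)⁻¹ := by
  unfold slDom
  rw [integral_const_mul]
  have h1 : ∫ s : ℝ, (1 + (s / ε) ^ 2)⁻¹ = |ε| • ∫ u : ℝ, (1 + u ^ 2)⁻¹ :=
    MeasureTheory.Measure.integral_comp_div (fun u : ℝ => (1 + u ^ 2)⁻¹) ε
  rw [h1, integral_univ_inv_one_add_sq, abs_of_pos hε, smul_eq_mul, pow_succ]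
  field_simp

variable [MeasurableSpace E] [BorelSpace E] [FiniteDimensional ℝ E]

theorem measurable_norm_toLp :
    Measurable (fun p : ℝ × E => ‖(WithLp.toLp 2 p : WithLp 2 (ℝ × E))‖) := by
  have : (fun p : ℝ × E => ‖(WithLp.toLp 2 p : WithLp 2 (ℝ × E))‖) =
      fun p : ℝ × E => Real.sqrt (‖p.1‖ ^ 2 + ‖p.2‖ ^ 2) := by
    ext p
    rw [WithLp.prod_norm_eq_of_L2]
    rfl
  rw [this]
  fun_prop

theorem measurable_slKer (n : ℕ) (ε : ℝ) :
    Measurable (fun p : ℝ × E => slKer n ε p.1 p.2) := by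
  unfold slKer
  have hN := measurable_norm_toLp (E := E)
  refine Measurable.ite (measurableSet_lt measurable_const hN) ?_ measurable_const
  exact ((hN.pow_const _).inv).smul measurable_snd

/-- The constant `c_n = ∫ (1 + u²)^(-(n+2)/2) du`. -/
noncomputable def rieszConst (n : ℕ) : ℝ := ∫ u : ℝ, (Real.sqrt (1 + u ^ 2) ^ (n + 2))⁻¹

theorem rieszConst_integrand_le (n : ℕ) (u : ℝ) :
    (Real.sqrt (1 + u ^ 2) ^ (n + 2))⁻¹ ≤ (1 + u ^ 2)⁻¹ := by
  have h1 : (1 : ℝ) ≤ Real.sqrt (1 + u ^ 2) := by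
    rw [Real.one_le_sqrt]; nlinarith [sq_nonneg u]
  have h2 : 1 + u ^ 2 ≤ Real.sqrt (1 + u ^ 2) ^ (n + 2) := by
    calc 1 + u ^ 2 = Real.sqrt (1 + u ^ 2) ^ 2 := (Real.sq_sqrt (by positivity)).symm
      _ ≤ Real.sqrt (1 + u ^ 2) ^ (n + 2) := pow_le_pow_right₀ h1 (by omega)
  exact inv_anti₀ (by positivity) h2

theorem integrable_rieszConst_integrand (n : ℕ) :
    Integrable (fun u : ℝ => (Real.sqrt (1 + u ^ 2) ^ (n + 2))⁻¹) := by
  refine Integrable.mono' integrable_inv_one_add_sq ?_ ?_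
  · exact Measurable.aestronglyMeasurable (by fun_prop)
  · refine Filter.Eventually.of_forall fun u => ?_
    rw [Real.norm_of_nonneg (by positivity)]
    exact rieszConst_integrand_le n u

theorem rieszConst_pos (n : ℕ) : 0 < rieszConst n := by
  unfold rieszConst
  rw [integral_pos_iff_support_of_nonneg (fun u => by positivity)
    (integrable_rieszConst_integrand n)]
  have : Function.support (fun u : ℝ => (Real.sqrt (1 + u ^ 2) ^ (n + 2))⁻¹) = Set.univ := by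
    ext u
    simp only [Function.mem_support, ne_eq, inv_eq_zero, Set.mem_univ, iff_true]
    have h1 : (0 : ℝ) < Real.sqrt (1 + u ^ 2) := Real.sqrt_pos.mpr (by positivity)
    positivity
  rw [this]
  simp

end kernel

end Vale.Agent.H32
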