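import Vale.Agent.H32.DS.Psi

/-!
Auxiliary measure-theoretic lemmas: squares of `L²` norms, Cauchy-Schwarz on a finite measure,
iterated integrals over `L¹ ⊗ ν`, and an averaging lemma on the line.
-/

open MeasureTheory Set Filter Topology
open scoped NNReal ENNReal

set_option linter.unusedSectionVars false
set_option linter.unusedVariables false

namespace Vale.Agent.H32

section l2

theorem eLpNorm_two_sq {α G : Type*} [MeasurableSpace α] [NormedAddCommGroup G] (f : α → G)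
    (μ : Measure α) : eLpNorm f 2 μ ^ 2 = ∫⁻ a, ‖f a‖ₑ ^ 2 ∂μ := by
  have h := eLpNorm_nnreal_pow_eq_lintegral (μ := μ) (f := f) (p := 2) two_ne_zero
  simpa using h

theorem sq_lintegral_enorm_le {α G : Type*} [MeasurableSpace α] [NormedAddCommGroup G]
    (f : α → G) (μ : Measure α) (hf : AEStronglyMeasurable f μ) :
    (∫⁻ t, ‖f t‖ₑ ∂μ) ^ 2 ≤ μ Set.univ * ∫⁻ t, ‖f t‖ₑ ^ 2 ∂μ := by
  have h := eLpNorm_le_eLpNorm_mul_rpow_measure_univ (μ := μ) (p := 1) (q := 2)
    (by norm_num) hf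
  rw [eLpNorm_one_eq_lintegral_enorm] at h
  have h2 : (∫⁻ t, ‖f t‖ₑ ∂μ) ^ 2 ≤
      (eLpNorm f 2 μ * μ Set.univ ^ (1 / (1 : ℝ≥0∞).toReal - 1 / (2 : ℝ≥0∞).toReal)) ^ 2 :=
    pow_le_pow_left' h 2
  rw [mul_pow, eLpNorm_two_sq] at h2
  have h3 : (μ Set.univ ^ (1 / (1 : ℝ≥0∞).toReal - 1 / (2 : ℝ≥0∞).toReal)) ^ 2 = μ Set.univ := by
    rw [← ENNReal.rpow_natCast, ← ENNReal.rpow_mul]
    norm_num
  rw [h3, mul_comm] at h2
  exact h2

variable {E : Type*} [NormedAddCommGroup E] [InnerProductSpace ℝ E] [MeasurableSpace E]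
  [BorelSpace E] [FiniteDimensional ℝ E]

theorem lintegral_lineProd (ν : Measure E) [SFinite ν] (f : WithLp 2 (ℝ × E) → ℝ≥0∞)
    (hf : Measurable f) :
    ∫⁻ p, f p ∂(lineProd ν) = ∫⁻ t, ∫⁻ x, f (WithLp.toLp 2 (t, x)) ∂ν ∂(volume : Measure ℝ) := by
  unfold lineProd
  rw [lintegral_map hf (WithLp.measurable_toLp 2 _)]
  exact lintegral_prod (fun a : ℝ × E => f (WithLp.toLp 2 a))
    (hf.comp (WithLp.measurable_toLp 2 _)).aemeasurable

end l2

section avg

variable {G : Type*} [NormedAddCommGroup G] [NormedSpace ℝ G] [CompleteSpace G]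

/-- Averaging lemma: for integrable `v` on the line, the averages
`L⁻¹ ∫_0^L ∫_0^L v (t - t') dt' dt` converge to `∫ v` as `L → ∞`. -/
theorem tendsto_avg (v : ℝ → G) (hv : Integrable v) :
    Tendsto (fun j : ℕ => ((j : ℝ) + 1)⁻¹ •
      ∫ t in (0 : ℝ)..((j : ℝ) + 1), ∫ t' in (0 : ℝ)..((j : ℝ) + 1), v (t - t'))
      atTop (𝓝 (∫ s, v s)) := by
  -- the inner integral as an interval integral of `v`
  set W : ℝ → ℝ → G := fun L t => ∫ s in (t - L)..t, v s with hW
  have hinner : ∀ L t : ℝ, ∫ t' in (0 : ℝ)..L, v (t - t') = W L t := by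
    intro L t
    rw [intervalIntegral.integral_comp_sub_left (fun s => v s) t, sub_zero]
  have hcontP : Continuous (fun b : ℝ => ∫ s in (0 : ℝ)..b, v s) :=
    intervalIntegral.continuous_primitive (fun a b => hv.intervalIntegrable) 0
  have hWeq : ∀ L t : ℝ, W L t = (∫ s in (0 : ℝ)..t, v s) - ∫ s in (0 : ℝ)..(t - L), v s := by
    intro L t
    rw [hW]
    exact (intervalIntegral.integral_interval_sub_left hv.intervalIntegrable
      hv.intervalIntegrable).symm
  have hWcont : ∀ L : ℝ, Continuous (W L) := by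
    intro L
    have : W L = fun t => (∫ s in (0 : ℝ)..t, v s) - ∫ s in (0 : ℝ)..(t - L), v s := by
      ext t; exact hWeq L t
    rw [this]
    exact hcontP.sub (hcontP.comp (continuous_id.sub continuous_const))
  have hWbound : ∀ L t : ℝ, ‖W L t‖ ≤ ∫ s, ‖v s‖ := by
    intro L t
    rw [hW]
    calc ‖∫ s in (t - L)..t, v s‖ ≤ ∫ s in Set.uIoc (t - L) t, ‖v s‖ :=
          intervalIntegral.norm_integral_le_integral_norm_uIoc
      _ ≤ ∫ s, ‖v s‖ :=
          setIntegral_le_integral hv.norm (Filter.Eventually.of_forall fun s => norm_nonneg _)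
  -- rewrite the averages as integrals over `(0, 1]`
  have havg : ∀ j : ℕ, ((j : ℝ) + 1)⁻¹ •
      ∫ t in (0 : ℝ)..((j : ℝ) + 1), ∫ t' in (0 : ℝ)..((j : ℝ) + 1), v (t - t') =
      ∫ u in Set.Ioc (0 : ℝ) 1, W ((j : ℝ) + 1) (((j : ℝ) + 1) * u) := by
    intro j
    have hL : (0 : ℝ) < (j : ℝ) + 1 := by positivity
    simp_rw [hinner]
    have h1 := intervalIntegral.smul_integral_comp_mul_left (f := W ((j : ℝ) + 1))
      (a := 0) (b := 1) ((j : ℝ) + 1)
    rw [mul_zero, mul_one] at h1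
    rw [← h1, smul_smul, inv_mul_cancel₀ hL.ne', one_smul,
      intervalIntegral.integral_of_le zero_le_one]
  simp_rw [havg]
  have hconst : ∫ s, v s = ∫ u in Set.Ioc (0 : ℝ) 1, (∫ s, v s) := by
    rw [setIntegral_const]
    simp
  rw [hconst]
  refine tendsto_integral_of_dominated_convergence (fun _ => ∫ s, ‖v s‖) ?_ ?_ ?_ ?_
  · intro j
    exact ((hWcont _).comp (continuous_const.mul continuous_id)).aestronglyMeasurable
  · exact integrable_const _
  · intro j
    exact Filter.Eventually.of_forall fun u => hWbound _ _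
  · have hae : ∀ᵐ u ∂(volume.restrict (Set.Ioc (0 : ℝ) 1)), u ∈ Set.Ioo (0 : ℝ) 1 := by
      rw [ae_restrict_iff' measurableSet_Ioc]
      have h1 : ∀ᵐ u ∂(volume : Measure ℝ), u ≠ 1 := by
        rw [ae_iff]
        simp
      filter_upwards [h1] with u hu1 hu
      exact ⟨hu.1, lt_of_le_of_ne hu.2 hu1⟩
    filter_upwards [hae] with u hu
    have hL : Tendsto (fun j : ℕ => (j : ℝ) + 1) atTop atTop :=
      tendsto_atTop_add_const_right _ _ tendsto_natCast_atTop_atTop
    have hb : Tendsto (fun j : ℕ => ((j : ℝ) + 1) * u) atTop atTop :=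
      hL.atTop_mul_const hu.1
    have ha : Tendsto (fun j : ℕ => ((j : ℝ) + 1) * u - ((j : ℝ) + 1)) atTop atBot := by
      have : (fun j : ℕ => ((j : ℝ) + 1) * u - ((j : ℝ) + 1)) =
          fun j : ℕ => ((j : ℝ) + 1) * (u - 1) := by
        ext j; ring
      rw [this]
      exact hL.atTop_mul_const_of_neg (by linarith [hu.2])
    exact intervalIntegral_tendsto_integral hv ha hb

end avg

end Vale.Agent.H32
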