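import Vale.Agent.H32.DS.Slice

/-!
The `E`-component of the truncated Riesz transform of `L¹ ⊗ ν` applied to a tensor product
`1_(0,L] ⊗ g`.
-/

open MeasureTheory Set Filter Topology
open scoped NNReal ENNReal

set_option linter.unusedSectionVars false
set_option linter.unusedVariables false

namespace Vale.Agent.H32

section psi

variable {E : Type*} [NormedAddCommGroup E] [InnerProductSpace ℝ E] [MeasurableSpace E]
  [BorelSpace E] [FiniteDimensional ℝ E]

/-- The test function `1_(0,L] ⊗ g` on `ℝ × E`. -/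
noncomputable def tensorFn (L : ℝ) (g : E → ℝ) (q : WithLp 2 (ℝ × E)) : ℝ :=
  Set.indicator (Set.Ioc 0 L) (fun _ => (1 : ℝ)) q.fst * g q.snd

theorem snd_kernel_indicator (n : ℕ) (ε : ℝ) (t : ℝ) (x : E) (c : ℝ) (t' : ℝ) (y : E) :
    (Set.indicator {q : WithLp 2 (ℝ × E) | ε < dist (WithLp.toLp 2 (t, x)) q}
      (fun q => c • rieszKernel (n + 1) (WithLp.toLp 2 (t, x) - q))
      (WithLp.toLp 2 (t', y))).snd = c • slKer n ε (t - t') (x - y) := by
  have hsub : (WithLp.toLp 2 (t, x) - WithLp.toLp 2 (t', y) : WithLp 2 (ℝ × E)) =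
      WithLp.toLp 2 (t - t', x - y) := rfl
  by_cases h : ε < dist (WithLp.toLp 2 (t, x) : WithLp 2 (ℝ × E)) (WithLp.toLp 2 (t', y))
  · rw [Set.indicator_of_mem (by exact h)]
    rw [dist_eq_norm, hsub] at h
    unfold slKer rieszKernel
    rw [if_pos h, hsub]
    simp only [WithLp.smul_snd, WithLp.toLp_snd]
  · rw [Set.indicator_of_notMem (by exact h)]
    rw [dist_eq_norm, hsub] at h
    unfold slKer
    rw [if_neg h]
    simp

theorem snd_truncRiesz_lineProd (n : ℕ) (ε : ℝ) (ν : Measure E) [SFinite ν] (g : E → ℝ)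
    (L : ℝ) (hL : 0 ≤ L) (t : ℝ) (x : E)
    (hint : IntegrableOn
      (fun q : WithLp 2 (ℝ × E) => tensorFn L g q • rieszKernel (n + 1) (WithLp.toLp 2 (t, x) - q))
      {q : WithLp 2 (ℝ × E) | ε < dist (WithLp.toLp 2 (t, x)) q} (lineProd ν)) :
    (truncRiesz (n + 1) (lineProd ν) ε (tensorFn L g) (WithLp.toLp 2 (t, x))).snd =
      ∫ t' in (0 : ℝ)..L, slOp n ε ν g (t - t') x := by
  set p : WithLp 2 (ℝ × E) := WithLp.toLp 2 (t, x) with hp
  set S : Set (WithLp 2 (ℝ × E)) := {q : WithLp 2 (ℝ × E) | ε < dist p q} with hS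
  have hSm : MeasurableSet S :=
    (isOpen_lt continuous_const (continuous_const.dist continuous_id)).measurableSet
  set H : WithLp 2 (ℝ × E) → WithLp 2 (ℝ × E) :=
    fun q => tensorFn L g q • rieszKernel (n + 1) (p - q) with hH
  have h1 : truncRiesz (n + 1) (lineProd ν) ε (tensorFn L g) p =
      ∫ w : ℝ × E, S.indicator H (WithLp.toLp 2 w) ∂((volume : Measure ℝ).prod ν) := by
    unfold truncRiesz
    rw [← integral_indicator hSm]
    unfold lineProd
    exact integral_map_equiv (MeasurableEquiv.toLp 2 (ℝ × E)) (S.indicator H)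
  have hG : Integrable (fun w : ℝ × E => S.indicator H (WithLp.toLp 2 w))
      ((volume : Measure ℝ).prod ν) := by
    have h2 : Integrable (S.indicator H) (lineProd ν) := (integrable_indicator_iff hSm).mpr hint
    unfold lineProd at h2
    exact (integrable_map_equiv (MeasurableEquiv.toLp 2 (ℝ × E)) (S.indicator H)).mp h2
  have hpt : ∀ w : ℝ × E, (S.indicator H (WithLp.toLp 2 w)).snd =
      (Set.indicator (Set.Ioc 0 L) (fun _ => (1 : ℝ)) w.1 * g w.2) •
        slKer n ε (t - w.1) (x - w.2) := by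
    intro w
    have h3 : S.indicator H (WithLp.toLp 2 w) =
        Set.indicator {q : WithLp 2 (ℝ × E) | ε < dist (WithLp.toLp 2 (t, x)) q}
          (fun q => (Set.indicator (Set.Ioc 0 L) (fun _ => (1 : ℝ)) w.1 * g w.2) •
            rieszKernel (n + 1) (WithLp.toLp 2 (t, x) - q)) (WithLp.toLp 2 (w.1, w.2)) := by
      by_cases hw : WithLp.toLp 2 w ∈ S
      · rw [Set.indicator_of_mem hw, Set.indicator_of_mem (by exact hw)]
        rfl
      · rw [Set.indicator_of_notMem hw, Set.indicator_of_notMem (by exact hw)]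
    rw [h3, snd_kernel_indicator]
  rw [h1, snd_integral_withLp hG]
  simp_rw [hpt]
  have hG2 : Integrable (fun w : ℝ × E =>
      (Set.indicator (Set.Ioc 0 L) (fun _ => (1 : ℝ)) w.1 * g w.2) •
        slKer n ε (t - w.1) (x - w.2)) ((volume : Measure ℝ).prod ν) := by
    have := hG.prodLp_snd
    simp_rw [hpt] at this
    exact this
  rw [integral_prod _ hG2]
  have hin : ∀ t' : ℝ, ∫ y, (Set.indicator (Set.Ioc 0 L) (fun _ => (1 : ℝ)) t' * g y) •
      slKer n ε (t - t') (x - y) ∂ν =
      Set.indicator (Set.Ioc 0 L) (fun t' => slOp n ε ν g (t - t') x) t' := by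
    intro t'
    by_cases ht' : t' ∈ Set.Ioc 0 L
    · rw [Set.indicator_of_mem ht', Set.indicator_of_mem ht']
      simp only [one_mul]
      rfl
    · rw [Set.indicator_of_notMem ht', Set.indicator_of_notMem ht']
      simp
  simp_rw [hin]
  rw [integral_indicator measurableSet_Ioc, intervalIntegral.integral_of_le hL]

end psi

end Vale.Agent.H32
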