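import Vale.Agent.H32.DS.Conv

/-!
Decomposition of the limit operator into the truncated Riesz transform of `ν` and a local error
term, and a Schur-type bound for the error term.
-/

open MeasureTheory Set Filter Topology
open scoped NNReal ENNReal

set_option linter.unusedSectionVars false
set_option linter.unusedVariables false

namespace Vale.Agent.H32

section schur

variable {E : Type*} [NormedAddCommGroup E] [InnerProductSpace ℝ E] [MeasurableSpace E]
  [BorelSpace E] [FiniteDimensional ℝ E]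

/-- The local error operator. -/
noncomputable def slErr (n : ℕ) (ε : ℝ) (ν : Measure E) (g : E → ℝ) (x : E) : E :=
  ∫ y in {y : E | ε < dist x y}ᶜ, g y • slInt n ε (x - y) ∂ν

theorem integrable_smul_slInt (n : ℕ) (hn : 1 ≤ n) (ε : ℝ) (hε : 0 < ε) (ν : Measure E)
    (g : E → ℝ) (hg : Integrable g ν) (x : E) :
    Integrable (fun y => g y • slInt n ε (x - y)) ν := by
  refine Integrable.mono' (hg.norm.mul_const (2 * Real.pi * (ε ^ n)⁻¹)) ?_ ?_
  · exact hg.aestronglyMeasurable.smul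
      ((measurable_slInt n ε).comp (measurable_const.sub measurable_id)).aestronglyMeasurable
  · refine Filter.Eventually.of_forall fun y => ?_
    rw [norm_smul]
    exact mul_le_mul_of_nonneg_left (norm_slInt_le n hn ε hε _) (norm_nonneg _)

theorem slT_eq (n : ℕ) (hn : 1 ≤ n) (ε : ℝ) (hε : 0 < ε) (ν : Measure E) [SFinite ν]
    (g : E → ℝ) (hg : Integrable g ν) (hgm : StronglyMeasurable g) (x : E) :
    slT n ε ν g x = rieszConst n • truncRiesz n ν ε g x + slErr n ε ν g x := by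
  have hSx : MeasurableSet {y : E | ε < dist x y} :=
    (isOpen_lt continuous_const (continuous_const.dist continuous_id)).measurableSet
  have hI := integrable_smul_slInt n hn ε hε ν g hg x
  unfold slT
  rw [integral_slOp n hn ε hε ν g hg hgm x, ← integral_add_compl hSx hI]
  unfold slErr truncRiesz
  congr 1
  rw [← integral_smul]
  apply setIntegral_congr_fun hSx
  intro y hy
  have hy' : ε < ‖x - y‖ := by
    have : ε < dist x y := hy
    rwa [dist_eq_norm] at this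
  simp only
  rw [slInt_eq n ε hε.le (x - y) hy', smul_comm]

theorem lintegral_sq_slErr_le (n : ℕ) (hn : 1 ≤ n) (ε : ℝ) (hε : 0 < ε) (ν : Measure E)
    [SFinite ν] (A : ℝ) (hA : 0 ≤ A)
    (hup : ∀ (x : E) (r : ℝ), 0 < r → ν (Metric.closedBall x r) ≤ ENNReal.ofReal (A * r ^ n))
    (g : E → ℝ) (hgm : StronglyMeasurable g) :
    ∫⁻ x, ‖slErr n ε ν g x‖ₑ ^ 2 ∂ν ≤
      ENNReal.ofReal (2 * Real.pi * A) ^ 2 * ∫⁻ x, ‖g x‖ₑ ^ 2 ∂ν := by
  have hScompl : ∀ x : E, {y : E | ε < dist x y}ᶜ = Metric.closedBall x ε := by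
    intro x
    ext y
    simp only [Set.mem_compl_iff, Set.mem_ofPred_eq, not_lt, Metric.mem_closedBall]
    rw [dist_comm]
  have hcb : ∀ x : E, MeasurableSet (Metric.closedBall x ε) :=
    fun x => Metric.isClosed_closedBall.measurableSet
  set c1 : ℝ≥0∞ := ENNReal.ofReal (2 * Real.pi * (ε ^ n)⁻¹) with hc1
  set c2 : ℝ≥0∞ := ENNReal.ofReal (A * ε ^ n) with hc2
  -- pointwise bound
  have hpt : ∀ x : E, ‖slErr n ε ν g x‖ₑ ^ 2 ≤
      c1 ^ 2 * (c2 * ∫⁻ y in Metric.closedBall x ε, ‖g y‖ₑ ^ 2 ∂ν) := by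
    intro x
    unfold slErr
    rw [hScompl x]
    have h1 : ‖∫ y in Metric.closedBall x ε, g y • slInt n ε (x - y) ∂ν‖ₑ ≤
        c1 * ∫⁻ y in Metric.closedBall x ε, ‖g y‖ₑ ∂ν := by
      calc ‖∫ y in Metric.closedBall x ε, g y • slInt n ε (x - y) ∂ν‖ₑ
          ≤ ∫⁻ y in Metric.closedBall x ε, ‖g y • slInt n ε (x - y)‖ₑ ∂ν :=
            enorm_integral_le_lintegral_enorm _
        _ ≤ ∫⁻ y in Metric.closedBall x ε, c1 * ‖g y‖ₑ ∂ν := by
            apply lintegral_mono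
            intro y
            simp only
            rw [enorm_smul, mul_comm]
            apply mul_le_mul_left
            rw [← ofReal_norm]
            exact ENNReal.ofReal_le_ofReal (norm_slInt_le n hn ε hε _)
        _ = c1 * ∫⁻ y in Metric.closedBall x ε, ‖g y‖ₑ ∂ν :=
            lintegral_const_mul' _ _ ENNReal.ofReal_ne_top
    have h2 := sq_lintegral_enorm_le g (ν.restrict (Metric.closedBall x ε))
      hgm.aestronglyMeasurable
    rw [Measure.restrict_apply MeasurableSet.univ, Set.univ_inter] at h2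
    calc ‖∫ y in Metric.closedBall x ε, g y • slInt n ε (x - y) ∂ν‖ₑ ^ 2
        ≤ (c1 * ∫⁻ y in Metric.closedBall x ε, ‖g y‖ₑ ∂ν) ^ 2 := pow_le_pow_left' h1 2
      _ = c1 ^ 2 * (∫⁻ y in Metric.closedBall x ε, ‖g y‖ₑ ∂ν) ^ 2 := mul_pow _ _ _
      _ ≤ c1 ^ 2 * (ν (Metric.closedBall x ε) *
            ∫⁻ y in Metric.closedBall x ε, ‖g y‖ₑ ^ 2 ∂ν) := mul_le_mul_right h2 _
      _ ≤ c1 ^ 2 * (c2 * ∫⁻ y in Metric.closedBall x ε, ‖g y‖ₑ ^ 2 ∂ν) :=
          mul_le_mul_right (mul_le_mul_left (hup x ε hε) _) _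
  -- Tonelli
  set D : Set (E × E) := {q : E × E | dist q.1 q.2 ≤ ε} with hD
  have hDm : MeasurableSet D :=
    (isClosed_le (continuous_fst.dist continuous_snd) continuous_const).measurableSet
  have hΦm : Measurable (D.indicator (fun q : E × E => ‖g q.2‖ₑ ^ 2)) :=
    ((hgm.measurable.comp measurable_snd).enorm.pow_const 2).indicator hDm
  have hin : ∀ x : E, ∫⁻ y in Metric.closedBall x ε, ‖g y‖ₑ ^ 2 ∂ν =
      ∫⁻ y, D.indicator (fun q : E × E => ‖g q.2‖ₑ ^ 2) (x, y) ∂ν := by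
    intro x
    rw [← lintegral_indicator (hcb x)]
    congr 1
    ext y
    by_cases hy : y ∈ Metric.closedBall x ε
    · have hq : (x, y) ∈ D := by
        rw [hD]; simp only [Set.mem_ofPred_eq]; rw [dist_comm]; exact hy
      rw [Set.indicator_of_mem hy, Set.indicator_of_mem hq]
    · have hq : (x, y) ∉ D := by
        rw [hD]; simp only [Set.mem_ofPred_eq]; rw [dist_comm]; exact hy
      rw [Set.indicator_of_notMem hy, Set.indicator_of_notMem hq]
  have hout : ∀ y : E, ∫⁻ x, D.indicator (fun q : E × E => ‖g q.2‖ₑ ^ 2) (x, y) ∂ν ≤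
      c2 * ‖g y‖ₑ ^ 2 := by
    intro y
    have h1 : ∀ x : E, D.indicator (fun q : E × E => ‖g q.2‖ₑ ^ 2) (x, y) =
        (Metric.closedBall y ε).indicator (fun _ => ‖g y‖ₑ ^ 2) x := by
      intro x
      by_cases hx : x ∈ Metric.closedBall y ε
      · have hq : (x, y) ∈ D := by
          rw [hD]; exact hx
        rw [Set.indicator_of_mem hx, Set.indicator_of_mem hq]
      · have hq : (x, y) ∉ D := by
          rw [hD]; exact hx
        rw [Set.indicator_of_notMem hx, Set.indicator_of_notMem hq]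
    simp_rw [h1]
    rw [lintegral_indicator (hcb y), setLIntegral_const, mul_comm]
    exact mul_le_mul_left (hup y ε hε) _
  have hT : ∫⁻ x, (∫⁻ y in Metric.closedBall x ε, ‖g y‖ₑ ^ 2 ∂ν) ∂ν ≤
      c2 * ∫⁻ y, ‖g y‖ₑ ^ 2 ∂ν := by
    simp_rw [hin]
    rw [lintegral_lintegral_swap
      (f := fun (x y : E) => D.indicator (fun q : E × E => ‖g q.2‖ₑ ^ 2) (x, y))
      hΦm.aemeasurable]
    calc ∫⁻ y, (∫⁻ x, D.indicator (fun q : E × E => ‖g q.2‖ₑ ^ 2) (x, y) ∂ν) ∂ν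
        ≤ ∫⁻ y, c2 * ‖g y‖ₑ ^ 2 ∂ν := lintegral_mono hout
      _ = c2 * ∫⁻ y, ‖g y‖ₑ ^ 2 ∂ν := lintegral_const_mul' _ _ ENNReal.ofReal_ne_top
  have hconst : c1 ^ 2 * (c2 * c2) = ENNReal.ofReal (2 * Real.pi * A) ^ 2 := by
    rw [hc1, hc2, ← pow_two, ← mul_pow, ← ENNReal.ofReal_mul (by positivity)]
    congr 2
    have hεn : ε ^ n ≠ 0 := by positivity
    field_simp
  calc ∫⁻ x, ‖slErr n ε ν g x‖ₑ ^ 2 ∂ν
      ≤ ∫⁻ x, c1 ^ 2 * (c2 * ∫⁻ y in Metric.closedBall x ε, ‖g y‖ₑ ^ 2 ∂ν) ∂ν :=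
        lintegral_mono hpt
    _ = c1 ^ 2 * (c2 * ∫⁻ x, (∫⁻ y in Metric.closedBall x ε, ‖g y‖ₑ ^ 2 ∂ν) ∂ν) := by
        rw [lintegral_const_mul' _ _ (ENNReal.pow_ne_top ENNReal.ofReal_ne_top),
          lintegral_const_mul' _ _ ENNReal.ofReal_ne_top]
    _ ≤ c1 ^ 2 * (c2 * (c2 * ∫⁻ y, ‖g y‖ₑ ^ 2 ∂ν)) :=
        mul_le_mul_right (mul_le_mul_right hT _) _
    _ = ENNReal.ofReal (2 * Real.pi * A) ^ 2 * ∫⁻ x, ‖g x‖ₑ ^ 2 ∂ν := by
        rw [← hconst]; ring

end schur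

end Vale.Agent.H32
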