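import Vale.Agent.H32.DS.Kernel

/-!
The integrated sliced kernel and the sliced operators.
-/

open MeasureTheory Set Filter Topology
open scoped NNReal ENNReal

set_option linter.unusedSectionVars false
set_option linter.unusedVariables false

namespace Vale.Agent.H32

section slice

variable {E : Type*} [NormedAddCommGroup E] [InnerProductSpace ℝ E] [MeasurableSpace E]
  [BorelSpace E] [FiniteDimensional ℝ E]

/-- `k(z) = ∫ slKer n ε s z ds`. -/
noncomputable def slInt (n : ℕ) (ε : ℝ) (z : E) : E := ∫ s, slKer n ε s z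

theorem integrable_slKer (n : ℕ) (hn : 1 ≤ n) (ε : ℝ) (hε : 0 < ε) (z : E) :
    Integrable (fun s => slKer n ε s z) := by
  refine Integrable.mono' (integrable_slDom n ε hε) ?_ ?_
  · have h := measurable_slKer (E := E) n ε
    exact (h.comp (measurable_id.prodMk measurable_const)).aestronglyMeasurable
  · exact Filter.Eventually.of_forall fun s => norm_slKer_le n hn ε hε s z

theorem norm_slInt_le (n : ℕ) (hn : 1 ≤ n) (ε : ℝ) (hε : 0 < ε) (z : E) :
    ‖slInt n ε z‖ ≤ 2 * Real.pi * (ε ^ n)⁻¹ := by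
  unfold slInt
  rw [← integral_slDom n ε hε]
  exact norm_integral_le_of_norm_le (integrable_slDom n ε hε)
    (Filter.Eventually.of_forall fun s => norm_slKer_le n hn ε hε s z)

theorem measurable_slInt (n : ℕ) (ε : ℝ) : Measurable (slInt (E := E) n ε) := by
  have h : StronglyMeasurable (fun p : E × ℝ => slKer n ε p.2 p.1) :=
    ((measurable_slKer (E := E) n ε).comp measurable_swap).stronglyMeasurable
  exact (h.integral_prod_right' (ν := (volume : Measure ℝ))).measurable

theorem norm_toLp_eq_mul (s : ℝ) (z : E) (hz : 0 < ‖z‖) :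
    ‖(WithLp.toLp 2 (s, z) : WithLp 2 (ℝ × E))‖ = ‖z‖ * Real.sqrt (1 + (s / ‖z‖) ^ 2) := by
  have h1 : ‖(WithLp.toLp 2 (s, z) : WithLp 2 (ℝ × E))‖ ^ 2 = s ^ 2 + ‖z‖ ^ 2 := norm_toLp_sq s z
  have h2 : (‖z‖ * Real.sqrt (1 + (s / ‖z‖) ^ 2)) ^ 2 = s ^ 2 + ‖z‖ ^ 2 := by
    rw [mul_pow, Real.sq_sqrt (by positivity)]
    field_simp
    ring
  have h3 : 0 ≤ ‖z‖ * Real.sqrt (1 + (s / ‖z‖) ^ 2) := by positivity
  exact (sq_eq_sq₀ (norm_nonneg _) h3).mp (h1.trans h2.symm)

theorem slInt_eq (n : ℕ) (ε : ℝ) (hε : 0 ≤ ε) (z : E) (hz : ε < ‖z‖) :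
    slInt n ε z = rieszConst n • rieszKernel n z := by
  have hr : 0 < ‖z‖ := lt_of_le_of_lt hε hz
  unfold slInt
  have h1 : ∀ s : ℝ, slKer n ε s z =
      ((‖z‖ ^ (n + 2))⁻¹ * (Real.sqrt (1 + (s / ‖z‖) ^ 2) ^ (n + 2))⁻¹) • z := by
    intro s
    unfold slKer
    rw [if_pos (lt_of_lt_of_le hz (norm_le_norm_toLp s z)), norm_toLp_eq_mul s z hr, mul_pow,
      mul_inv]
  simp_rw [h1]
  rw [integral_smul_const, integral_const_mul]
  have h2 : ∫ s : ℝ, (Real.sqrt (1 + (s / ‖z‖) ^ 2) ^ (n + 2))⁻¹ = |‖z‖| • rieszConst n :=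
    MeasureTheory.Measure.integral_comp_div (fun u : ℝ => (Real.sqrt (1 + u ^ 2) ^ (n + 2))⁻¹) ‖z‖
  rw [h2, abs_of_pos hr, smul_eq_mul]
  unfold rieszKernel
  rw [smul_smul]
  congr 1
  rw [pow_succ ‖z‖ (n + 1)]
  field_simp

/-- The sliced operator `V g s x = ∫ g(y) slKer n ε s (x - y) dν(y)`. -/
noncomputable def slOp (n : ℕ) (ε : ℝ) (ν : Measure E) (g : E → ℝ) (s : ℝ) (x : E) : E :=
  ∫ y, g y • slKer n ε s (x - y) ∂ν

theorem norm_slOp_le (n : ℕ) (hn : 1 ≤ n) (ε : ℝ) (hε : 0 < ε) (ν : Measure E) (g : E → ℝ)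
    (hg : Integrable g ν) (s : ℝ) (x : E) :
    ‖slOp n ε ν g s x‖ ≤ slDom n ε s * ∫ y, ‖g y‖ ∂ν := by
  unfold slOp
  rw [← integral_const_mul]
  refine norm_integral_le_of_norm_le (hg.norm.const_mul _) (Filter.Eventually.of_forall fun y => ?_)
  rw [norm_smul, mul_comm]
  exact mul_le_mul_of_nonneg_right (norm_slKer_le n hn ε hε s (x - y)) (norm_nonneg _)

theorem stronglyMeasurable_slOp (n : ℕ) (ε : ℝ) (ν : Measure E) [SFinite ν] (g : E → ℝ)
    (hg : StronglyMeasurable g) :
    StronglyMeasurable (fun p : ℝ × E => slOp n ε ν g p.1 p.2) := by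
  unfold slOp
  have h : StronglyMeasurable
      (fun q : (ℝ × E) × E => g q.2 • slKer n ε q.1.1 (q.1.2 - q.2)) := by
    have h1 : Measurable (fun q : (ℝ × E) × E => slKer n ε q.1.1 (q.1.2 - q.2)) :=
      (measurable_slKer (E := E) n ε).comp
        ((measurable_fst.comp measurable_fst).prodMk
          ((measurable_snd.comp measurable_fst).sub measurable_snd))
    exact (hg.measurable.comp measurable_snd).smul h1 |>.stronglyMeasurable
  exact h.integral_prod_right'

theorem integrable_slOp (n : ℕ) (hn : 1 ≤ n) (ε : ℝ) (hε : 0 < ε) (ν : Measure E) [SFinite ν]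
    (g : E → ℝ) (hg : Integrable g ν) (hgm : StronglyMeasurable g) (x : E) :
    Integrable (fun s => slOp n ε ν g s x) := by
  refine Integrable.mono' ((integrable_slDom n ε hε).mul_const (∫ y, ‖g y‖ ∂ν)) ?_ ?_
  · exact ((stronglyMeasurable_slOp n ε ν g hgm).comp_measurable
      (measurable_id.prodMk measurable_const)).aestronglyMeasurable
  · exact Filter.Eventually.of_forall fun s => norm_slOp_le n hn ε hε ν g hg s x

/-- Fubini: integrating the sliced operators over the line gives the operator with kernel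
`slInt`. -/
theorem integral_slOp (n : ℕ) (hn : 1 ≤ n) (ε : ℝ) (hε : 0 < ε) (ν : Measure E) [SFinite ν]
    (g : E → ℝ) (hg : Integrable g ν) (hgm : StronglyMeasurable g) (x : E) :
    ∫ s, slOp n ε ν g s x = ∫ y, g y • slInt n ε (x - y) ∂ν := by
  unfold slOp slInt
  have hint : Integrable (Function.uncurry fun (s : ℝ) (y : E) => g y • slKer n ε s (x - y))
      ((volume : Measure ℝ).prod ν) := by
    have hdom : Integrable (fun p : ℝ × E => slDom n ε p.1 * ‖g p.2‖)
        ((volume : Measure ℝ).prod ν) := (integrable_slDom n ε hε).mul_prod hg.norm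
    refine Integrable.mono' hdom ?_ ?_
    · have h1 : Measurable (fun p : ℝ × E => slKer n ε p.1 (x - p.2)) :=
        (measurable_slKer (E := E) n ε).comp
          (measurable_fst.prodMk (measurable_const.sub measurable_snd))
      exact ((hgm.measurable.comp measurable_snd).smul h1).aestronglyMeasurable
    · refine Filter.Eventually.of_forall fun p => ?_
      simp only [Function.uncurry]
      rw [norm_smul, mul_comm]
      exact mul_le_mul_of_nonneg_right (norm_slKer_le n hn ε hε p.1 (x - p.2)) (norm_nonneg _)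
  rw [integral_integral_swap hint]
  congr 1
  ext y
  rw [integral_smul]

end slice

end Vale.Agent.H32
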