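import Vale.Agent.H32.DS.Schur
import Vale.Agent.H32.DS.ADReg

/-!
Transference: boundedness of the `(n+1)`-dimensional Riesz transform on `L²(L¹ ⊗ ν)` implies
boundedness of the `n`-dimensional Riesz transform on `L²(ν)`.
-/

open MeasureTheory Set Filter Topology
open scoped NNReal ENNReal

set_option linter.unusedSectionVars false
set_option linter.unusedVariables false

namespace Vale.Agent.H32

section transfer

variable {E : Type*} [NormedAddCommGroup E] [InnerProductSpace ℝ E] [MeasurableSpace E]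
  [BorelSpace E] [FiniteDimensional ℝ E]

theorem ennreal_add_sq_le (a b : ℝ≥0∞) : (a + b) ^ 2 ≤ 4 * (a ^ 2 + b ^ 2) := by
  rcases le_total a b with h | h
  · calc (a + b) ^ 2 ≤ (b + b) ^ 2 := pow_le_pow_left' (add_le_add h le_rfl) 2
      _ = 4 * b ^ 2 := by ring
      _ ≤ 4 * (a ^ 2 + b ^ 2) := mul_le_mul_right le_add_self _
  · calc (a + b) ^ 2 ≤ (a + a) ^ 2 := pow_le_pow_left' (add_le_add le_rfl h) 2
      _ = 4 * a ^ 2 := by ring
      _ ≤ 4 * (a ^ 2 + b ^ 2) := mul_le_mul_right le_self_add _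

/-- The constant in the transferred bound. -/
noncomputable def transferConst (n : ℕ) (C A : ℝ) : ℝ≥0∞ :=
  ENNReal.ofReal (rieszConst n)⁻¹ ^ 2 *
    (4 * (ENNReal.ofReal C ^ 2 + ENNReal.ofReal (2 * Real.pi * A) ^ 2))

theorem transferConst_ne_top (n : ℕ) (C A : ℝ) : transferConst n C A ≠ ⊤ := by
  unfold transferConst
  apply ENNReal.mul_ne_top (ENNReal.pow_ne_top ENNReal.ofReal_ne_top)
  apply ENNReal.mul_ne_top (by norm_num)
  exact ENNReal.add_ne_top.mpr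
    ⟨ENNReal.pow_ne_top ENNReal.ofReal_ne_top, ENNReal.pow_ne_top ENNReal.ofReal_ne_top⟩

/-- The transferred bound for integrable, square integrable, measurable functions. -/
theorem lintegral_sq_truncRiesz_le_nice (n : ℕ) (hn : 1 ≤ n) (ε : ℝ) (hε : 0 < ε)
    (ν : Measure E) [SFinite ν] (C : ℝ)
    (hR : ∀ f : WithLp 2 (ℝ × E) → ℝ, MemLp f 2 (lineProd ν) →
      (∀ p : WithLp 2 (ℝ × E), IntegrableOn (fun q => f q • rieszKernel (n + 1) (p - q))
        {q : WithLp 2 (ℝ × E) | ε < dist p q} (lineProd ν)) ∧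
      eLpNorm (truncRiesz (n + 1) (lineProd ν) ε f) 2 (lineProd ν) ≤
        ENNReal.ofReal C * eLpNorm f 2 (lineProd ν))
    (A : ℝ) (hA : 0 ≤ A)
    (hup : ∀ (x : E) (r : ℝ), 0 < r → ν (Metric.closedBall x r) ≤ ENNReal.ofReal (A * r ^ n))
    (g : E → ℝ) (hg : Integrable g ν) (hg2 : MemLp g 2 ν) (hgm : StronglyMeasurable g) :
    ∫⁻ x, ‖truncRiesz n ν ε g x‖ₑ ^ 2 ∂ν ≤ transferConst n C A * ∫⁻ x, ‖g x‖ₑ ^ 2 ∂ν := by
  have hc : 0 < rieszConst n := rieszConst_pos n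
  have h1 := lintegral_sq_slT_le n hn ε hε ν C hR g hg hg2 hgm
  have h2 := lintegral_sq_slErr_le n hn ε hε ν A hA hup g hgm
  have hpt : ∀ x : E, ‖truncRiesz n ν ε g x‖ₑ ^ 2 ≤
      ENNReal.ofReal (rieszConst n)⁻¹ ^ 2 *
        (4 * (‖slT n ε ν g x‖ₑ ^ 2 + ‖slErr n ε ν g x‖ₑ ^ 2)) := by
    intro x
    have he : truncRiesz n ν ε g x =
        (rieszConst n)⁻¹ • (slT n ε ν g x - slErr n ε ν g x) := by
      rw [slT_eq n hn ε hε ν g hg hgm x, add_sub_cancel_right, smul_smul,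
        inv_mul_cancel₀ hc.ne', one_smul]
    rw [he, enorm_smul, mul_pow, Real.enorm_eq_ofReal (inv_nonneg.mpr hc.le)]
    apply mul_le_mul_right
    calc ‖slT n ε ν g x - slErr n ε ν g x‖ₑ ^ 2
        ≤ (‖slT n ε ν g x‖ₑ + ‖slErr n ε ν g x‖ₑ) ^ 2 := pow_le_pow_left' (enorm_sub_le) 2
      _ ≤ 4 * (‖slT n ε ν g x‖ₑ ^ 2 + ‖slErr n ε ν g x‖ₑ ^ 2) := ennreal_add_sq_le _ _
  have hTm : Measurable (fun x => ‖slT n ε ν g x‖ₑ ^ 2) :=
    (stronglyMeasurable_slT n ε ν g hgm).measurable.enorm.pow_const 2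
  calc ∫⁻ x, ‖truncRiesz n ν ε g x‖ₑ ^ 2 ∂ν
      ≤ ∫⁻ x, ENNReal.ofReal (rieszConst n)⁻¹ ^ 2 *
          (4 * (‖slT n ε ν g x‖ₑ ^ 2 + ‖slErr n ε ν g x‖ₑ ^ 2)) ∂ν := lintegral_mono hpt
    _ = ENNReal.ofReal (rieszConst n)⁻¹ ^ 2 *
          (4 * (∫⁻ x, ‖slT n ε ν g x‖ₑ ^ 2 ∂ν + ∫⁻ x, ‖slErr n ε ν g x‖ₑ ^ 2 ∂ν)) := by
        rw [lintegral_const_mul' _ _ (ENNReal.pow_ne_top ENNReal.ofReal_ne_top),
          lintegral_const_mul' _ _ (by norm_num), lintegral_add_left hTm]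
    _ ≤ ENNReal.ofReal (rieszConst n)⁻¹ ^ 2 *
          (4 * (ENNReal.ofReal C ^ 2 * ∫⁻ x, ‖g x‖ₑ ^ 2 ∂ν +
            ENNReal.ofReal (2 * Real.pi * A) ^ 2 * ∫⁻ x, ‖g x‖ₑ ^ 2 ∂ν)) :=
        mul_le_mul_right (mul_le_mul_right (add_le_add h1 h2) _) _
    _ = transferConst n C A * ∫⁻ x, ‖g x‖ₑ ^ 2 ∂ν := by
        unfold transferConst; ring

/-- The transferred bound for square integrable, measurable functions. -/
theorem lintegral_sq_truncRiesz_le_sm (n : ℕ) (hn : 1 ≤ n) (ε : ℝ) (hε : 0 < ε)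
    (ν : Measure E) [IsLocallyFiniteMeasure ν] (C : ℝ)
    (hR : ∀ f : WithLp 2 (ℝ × E) → ℝ, MemLp f 2 (lineProd ν) →
      (∀ p : WithLp 2 (ℝ × E), IntegrableOn (fun q => f q • rieszKernel (n + 1) (p - q))
        {q : WithLp 2 (ℝ × E) | ε < dist p q} (lineProd ν)) ∧
      eLpNorm (truncRiesz (n + 1) (lineProd ν) ε f) 2 (lineProd ν) ≤
        ENNReal.ofReal C * eLpNorm f 2 (lineProd ν))
    (A : ℝ) (hA : 0 ≤ A)
    (hup : ∀ (x : E) (r : ℝ), 0 < r → ν (Metric.closedBall x r) ≤ ENNReal.ofReal (A * r ^ n))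
    (g : E → ℝ) (hg2 : MemLp g 2 ν) (hgm : StronglyMeasurable g) :
    ∫⁻ x, ‖truncRiesz n ν ε g x‖ₑ ^ 2 ∂ν ≤ transferConst n C A * ∫⁻ x, ‖g x‖ₑ ^ 2 ∂ν := by
  set gj : ℕ → E → ℝ := fun j => (Metric.ball (0 : E) ((j : ℝ) + 1)).indicator g with hgj
  have hgjm : ∀ j, StronglyMeasurable (gj j) := fun j => hgm.indicator measurableSet_ball
  have hgj2 : ∀ j, MemLp (gj j) 2 ν := fun j => hg2.indicator measurableSet_ball
  have hgj1 : ∀ j, Integrable (gj j) ν := by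
    intro j
    have : Fact (ν (Metric.ball (0 : E) ((j : ℝ) + 1)) < ⊤) := ⟨measure_ball_lt_top⟩
    have h1 : Integrable g (ν.restrict (Metric.ball (0 : E) ((j : ℝ) + 1))) :=
      (hg2.restrict _).integrable one_le_two
    exact (integrable_indicator_iff measurableSet_ball).mpr h1
  have hbound : ∀ j, ∫⁻ x, ‖truncRiesz n ν ε (gj j) x‖ₑ ^ 2 ∂ν ≤
      transferConst n C A * ∫⁻ x, ‖g x‖ₑ ^ 2 ∂ν := by
    intro j
    refine (lintegral_sq_truncRiesz_le_nice n hn ε hε ν C hR A hA hup (gj j) (hgj1 j) (hgj2 j)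
      (hgjm j)).trans ?_
    apply mul_le_mul_right
    apply lintegral_mono
    intro x
    exact pow_le_pow_left' (enorm_indicator_le_enorm_self _ _) 2
  have hlim : ∀ x : E, Tendsto (fun j => truncRiesz n ν ε (gj j) x) atTop
      (𝓝 (truncRiesz n ν ε g x)) := by
    intro x
    unfold truncRiesz
    refine tendsto_integral_of_dominated_convergence
      (fun y => ‖g y • rieszKernel n (x - y)‖) ?_ ?_ ?_ ?_
    · intro j
      exact ((hgjm j).measurable.smul ((measurable_rieszKernel n).comp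
        (measurable_const.sub measurable_id))).aestronglyMeasurable
    · exact (integrableOn_riesz n hn ν A hA hup g hg2 ε hε x).norm
    · intro j
      refine Filter.Eventually.of_forall fun y => ?_
      rw [norm_smul, norm_smul]
      exact mul_le_mul_of_nonneg_right (norm_indicator_le_norm_self _ _) (norm_nonneg _)
    · refine Filter.Eventually.of_forall fun y => ?_
      apply tendsto_atTop_of_eventually_const (i₀ := ⌈‖y‖⌉₊)
      intro j hj
      have hy : y ∈ Metric.ball (0 : E) ((j : ℝ) + 1) := by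
        rw [mem_ball_zero_iff]
        have h1 : ‖y‖ ≤ (⌈‖y‖⌉₊ : ℝ) := Nat.le_ceil _
        have h2 : ((⌈‖y‖⌉₊ : ℕ) : ℝ) ≤ (j : ℝ) := by exact_mod_cast hj
        linarith
      simp only [hgj, Set.indicator_of_mem hy]
  set F : ℕ → E → ℝ≥0∞ := fun j x => ‖truncRiesz n ν ε (gj j) x‖ₑ ^ 2 with hF
  have hFm : ∀ j, AEMeasurable (F j) ν := fun j =>
    ((stronglyMeasurable_truncRiesz n ν ε (gj j) (hgjm j)).measurable.enorm.pow_const
      2).aemeasurable
  have hliminf : ∀ x : E, liminf (fun j => F j x) atTop = ‖truncRiesz n ν ε g x‖ₑ ^ 2 := by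
    intro x
    have h2 : Tendsto (fun j => F j x) atTop (𝓝 (‖truncRiesz n ν ε g x‖ₑ ^ 2)) :=
      ((ENNReal.continuous_pow 2).tendsto _).comp ((continuous_enorm.tendsto _).comp (hlim x))
    exact h2.liminf_eq
  calc ∫⁻ x, ‖truncRiesz n ν ε g x‖ₑ ^ 2 ∂ν = ∫⁻ x, liminf (fun j => F j x) atTop ∂ν := by
        simp_rw [hliminf]
    _ ≤ liminf (fun j => ∫⁻ x, F j x ∂ν) atTop := lintegral_liminf_le' hFm
    _ ≤ transferConst n C A * ∫⁻ x, ‖g x‖ₑ ^ 2 ∂ν := by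
        apply Filter.liminf_le_of_frequently_le'
        apply Filter.Frequently.of_forall
        intro j
        exact hbound j

/-- The transferred bound for all square integrable functions. -/
theorem lintegral_sq_truncRiesz_le (n : ℕ) (hn : 1 ≤ n) (ε : ℝ) (hε : 0 < ε)
    (ν : Measure E) [IsLocallyFiniteMeasure ν] (C : ℝ)
    (hR : ∀ f : WithLp 2 (ℝ × E) → ℝ, MemLp f 2 (lineProd ν) →
      (∀ p : WithLp 2 (ℝ × E), IntegrableOn (fun q => f q • rieszKernel (n + 1) (p - q))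
        {q : WithLp 2 (ℝ × E) | ε < dist p q} (lineProd ν)) ∧
      eLpNorm (truncRiesz (n + 1) (lineProd ν) ε f) 2 (lineProd ν) ≤
        ENNReal.ofReal C * eLpNorm f 2 (lineProd ν))
    (A : ℝ) (hA : 0 ≤ A)
    (hup : ∀ (x : E) (r : ℝ), 0 < r → ν (Metric.closedBall x r) ≤ ENNReal.ofReal (A * r ^ n))
    (g : E → ℝ) (hg2 : MemLp g 2 ν) :
    ∫⁻ x, ‖truncRiesz n ν ε g x‖ₑ ^ 2 ∂ν ≤ transferConst n C A * ∫⁻ x, ‖g x‖ₑ ^ 2 ∂ν := by
  set g' : E → ℝ := hg2.1.mk g with hg'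
  have hae : g =ᵐ[ν] g' := hg2.1.ae_eq_mk
  have hg'm : StronglyMeasurable g' := hg2.1.stronglyMeasurable_mk
  have hg'2 : MemLp g' 2 ν := (memLp_congr_ae hae).mp hg2
  have h1 : ∀ x : E, truncRiesz n ν ε g x = truncRiesz n ν ε g' x := by
    intro x
    unfold truncRiesz
    apply integral_congr_ae
    filter_upwards [ae_restrict_of_ae hae] with y hy
    rw [hy]
  have h2 : ∫⁻ x, ‖g x‖ₑ ^ 2 ∂ν = ∫⁻ x, ‖g' x‖ₑ ^ 2 ∂ν := by
    apply lintegral_congr_ae
    filter_upwards [hae] with y hy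
    rw [hy]
  simp_rw [h1]
  rw [h2]
  exact lintegral_sq_truncRiesz_le_sm n hn ε hε ν C hR A hA hup g' hg'2 hg'm

/-- **Transference.** If `L¹ ⊗ ν` is `(n+1)`-AD-regular and its `(n+1)`-dimensional Riesz
transform is bounded on `L²`, then the `n`-dimensional Riesz transform of `ν` is bounded on
`L²(ν)`. -/
theorem rieszBounded_of_lineProd (n : ℕ) (hn : 1 ≤ n) (ν : Measure E) [IsLocallyFiniteMeasure ν]
    (hAD : IsADRegular (n + 1) (lineProd ν)) (hR : IsRieszBounded (n + 1) (lineProd ν)) :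
    IsRieszBounded n ν := by
  obtain ⟨C', hC'1, hC'⟩ := adRegular_of_lineProd n hn ν hAD
  have hC'0 : 0 ≤ C' := le_trans zero_le_one hC'1
  set A : ℝ := C' * 4 ^ n with hAdef
  have hA : 0 ≤ A := by positivity
  have hup : ∀ (x : E) (r : ℝ), 0 < r →
      ν (Metric.closedBall x r) ≤ ENNReal.ofReal (A * r ^ n) := fun x r hr =>
    measure_closedBall_le_of_support ν C' n hC'0 (fun x hx r hr => (hC' x hx r hr).2) x r hr
  obtain ⟨C, hC⟩ := hR
  set κ : ℝ≥0∞ := transferConst n C A with hκ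
  have hκt : κ ≠ ⊤ := transferConst_ne_top n C A
  refine ⟨κ.toReal + 1, ?_⟩
  intro g hg2 ε hε
  refine ⟨fun x => integrableOn_riesz n hn ν A hA hup g hg2 ε hε x, ?_⟩
  have hmain := lintegral_sq_truncRiesz_le n hn ε hε ν C (fun f hf => hC f hf ε hε) A hA hup g hg2
  have hκle : κ ≤ ENNReal.ofReal (κ.toReal + 1) ^ 2 := by
    have h1 : κ ≤ ENNReal.ofReal (κ.toReal + 1) := by
      calc κ = ENNReal.ofReal κ.toReal := (ENNReal.ofReal_toReal hκt).symm
        _ ≤ ENNReal.ofReal (κ.toReal + 1) := ENNReal.ofReal_le_ofReal (by linarith)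
    have h2 : (1 : ℝ≥0∞) ≤ ENNReal.ofReal (κ.toReal + 1) := by
      rw [← ENNReal.ofReal_one]
      exact ENNReal.ofReal_le_ofReal (by linarith [ENNReal.toReal_nonneg (a := κ)])
    calc κ ≤ ENNReal.ofReal (κ.toReal + 1) := h1
      _ = ENNReal.ofReal (κ.toReal + 1) * 1 := (mul_one _).symm
      _ ≤ ENNReal.ofReal (κ.toReal + 1) * ENNReal.ofReal (κ.toReal + 1) :=
          mul_le_mul_right h2 _
      _ = ENNReal.ofReal (κ.toReal + 1) ^ 2 := (pow_two _).symm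
  have hsq : eLpNorm (truncRiesz n ν ε g) 2 ν ^ 2 ≤
      (ENNReal.ofReal (κ.toReal + 1) * eLpNorm g 2 ν) ^ 2 := by
    rw [mul_pow, eLpNorm_two_sq, eLpNorm_two_sq]
    exact hmain.trans (mul_le_mul_left hκle _)
  exact (ENNReal.pow_le_pow_left_iff two_ne_zero).mp hsq

end transfer

end Vale.Agent.H32
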