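import Vale.Agent.H32.DS.ADReg

/-!
Uniform rectifiability of `L¹ ⊗ ν` from uniform rectifiability of `ν`.
-/

open MeasureTheory Set Filter Topology
open scoped NNReal ENNReal

set_option linter.unusedSectionVars false
set_option linter.unusedVariables false

namespace Vale.Agent.H32

section ur

/-- Forget the first coordinate of a point of `ℝ^(n+1)`. -/
noncomputable def tailPt (n : ℕ) (w : EuclideanSpace ℝ (Fin (n + 1))) : EuclideanSpace ℝ (Fin n) :=
  WithLp.toLp 2 (fun i => w i.succ)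

/-- Prepend a coordinate to a point of `ℝ^n`. -/
noncomputable def consPt (n : ℕ) (a : ℝ) (s : EuclideanSpace ℝ (Fin n)) :
    EuclideanSpace ℝ (Fin (n + 1)) :=
  WithLp.toLp 2 (Fin.cons a (fun i => s i))

theorem tailPt_consPt (n : ℕ) (a : ℝ) (s : EuclideanSpace ℝ (Fin n)) :
    tailPt n (consPt n a s) = s := by
  ext i
  simp [tailPt, consPt]

theorem consPt_zero (n : ℕ) (a : ℝ) (s : EuclideanSpace ℝ (Fin n)) : consPt n a s 0 = a := by
  simp [consPt]

theorem norm_consPt_sq (n : ℕ) (a : ℝ) (s : EuclideanSpace ℝ (Fin n)) :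
    ‖consPt n a s‖ ^ 2 = a ^ 2 + ‖s‖ ^ 2 := by
  rw [EuclideanSpace.real_norm_sq_eq, EuclideanSpace.real_norm_sq_eq, Fin.sum_univ_succ]
  simp [consPt]

theorem dist_tailPt_le (n : ℕ) (w w' : EuclideanSpace ℝ (Fin (n + 1))) :
    dist (tailPt n w) (tailPt n w') ≤ dist w w' := by
  have h1 : dist (tailPt n w) (tailPt n w') ^ 2 ≤ dist w w' ^ 2 := by
    rw [EuclideanSpace.dist_sq_eq, EuclideanSpace.dist_sq_eq, Fin.sum_univ_succ]
    have : ∀ i : Fin n, dist (tailPt n w i) (tailPt n w' i) = dist (w i.succ) (w' i.succ) := by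
      intro i; rfl
    simp_rw [this]
    nlinarith [sq_nonneg (dist (w 0) (w' 0))]
  exact le_of_sq_le_sq h1 dist_nonneg |> fun h => by
    have := abs_le_of_sq_le_sq' h1 dist_nonneg
    exact this.2

theorem dist_apply_zero_le (n : ℕ) (w w' : EuclideanSpace ℝ (Fin (n + 1))) :
    dist (w 0) (w' 0) ≤ dist w w' := by
  have h1 : dist (w 0) (w' 0) ^ 2 ≤ dist w w' ^ 2 := by
    rw [EuclideanSpace.dist_sq_eq w w', Fin.sum_univ_succ]
    have : 0 ≤ ∑ i : Fin n, dist (w i.succ) (w' i.succ) ^ 2 :=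
      Finset.sum_nonneg fun i _ => sq_nonneg _
    linarith
  have := abs_le_of_sq_le_sq' h1 dist_nonneg
  exact this.2

variable {E : Type*} [NormedAddCommGroup E] [InnerProductSpace ℝ E] [MeasurableSpace E]
  [BorelSpace E] [FiniteDimensional ℝ E]

theorem dist_toLp_le_add (t t' : ℝ) (x y : E) :
    dist (WithLp.toLp 2 (t, x) : WithLp 2 (ℝ × E)) (WithLp.toLp 2 (t', y)) ≤
      dist t t' + dist x y := by
  have h := dist_toLp_sq t t' x y
  have h1 : dist (WithLp.toLp 2 (t, x) : WithLp 2 (ℝ × E)) (WithLp.toLp 2 (t', y)) ^ 2 ≤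
      (dist t t' + dist x y) ^ 2 := by
    rw [h, Real.dist_eq]
    nlinarith [sq_abs (t - t'), abs_nonneg (t - t'), dist_nonneg (x := x) (y := y)]
  have := abs_le_of_sq_le_sq' h1 (by positivity)
  exact this.2

/-- If `ν` is uniformly `n`-rectifiable and `L¹ ⊗ ν` is `(n+1)`-AD-regular, then `L¹ ⊗ ν` is
uniformly `(n+1)`-rectifiable. -/
theorem uniformlyRectifiable_lineProd (n : ℕ) (hn : 1 ≤ n) (ν : Measure E)
    [IsLocallyFiniteMeasure ν] (hAD : IsADRegular (n + 1) (lineProd ν))
    (hUR : IsUniformlyRectifiable n ν) : IsUniformlyRectifiable (n + 1) (lineProd ν) := by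
  obtain ⟨C', hC'1, hC'⟩ := adRegular_of_lineProd n hn ν hAD
  obtain ⟨θ, hθ, M, hM⟩ := hUR
  refine ⟨θ / 2 ^ n, by positivity, 1 + lipschitzExtensionConstant E * M, ?_⟩
  intro z hz r hr _
  set t : ℝ := z.fst with ht
  set x : E := z.snd with hx'
  have hzx : z = WithLp.toLp 2 (t, x) := rfl
  rw [hzx] at hz ⊢
  have hx : x ∈ ν.support := (mem_support_lineProd_iff ν t x).mp hz
  have hdiam : Metric.ediam ν.support = ⊤ :=
    ediam_support_eq_top_of_bounds ν C' n hn hC'1 hC' ⟨x, hx⟩
  obtain ⟨g₁, hg₁, hmeas⟩ := hM x hx (r / 2) (by positivity) (by rw [hdiam]; exact le_top)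
  obtain ⟨g₂, hg₂, heq⟩ := hg₁.extend_finite_dimension
  set g : EuclideanSpace ℝ (Fin (n + 1)) → WithLp 2 (ℝ × E) :=
    fun w => WithLp.toLp 2 (t + w 0, g₂ (tailPt n w)) with hg
  refine ⟨g, ?_, ?_⟩
  · -- Lipschitz
    have hlip : LipschitzWith (1 + lipschitzExtensionConstant E * M) g := by
      apply LipschitzWith.of_dist_le_mul
      intro w w'
      calc dist (g w) (g w') ≤ dist (t + w 0) (t + w' 0) + dist (g₂ (tailPt n w))
            (g₂ (tailPt n w')) := dist_toLp_le_add _ _ _ _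
        _ ≤ dist w w' + (lipschitzExtensionConstant E * M : ℝ≥0) * dist w w' := by
            apply add_le_add
            · rw [dist_add_left]; exact dist_apply_zero_le n w w'
            · exact (hg₂.dist_le_mul _ _).trans
                (mul_le_mul_of_nonneg_left (dist_tailPt_le n w w') (NNReal.coe_nonneg _))
        _ = ((1 + lipschitzExtensionConstant E * M : ℝ≥0) : ℝ) * dist w w' := by
            push_cast; ring
    exact hlip.lipschitzOnWith
  · -- big piece
    set B : Set E := Metric.ball x (r / 2) ∩ g₁ '' Metric.ball 0 (r / 2) with hB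
    have hsub : WithLp.toLp 2 '' (Metric.ball t (r / 2) ×ˢ B) ⊆
        Metric.ball (WithLp.toLp 2 (t, x)) r ∩ g '' Metric.ball 0 r := by
      rintro p ⟨⟨t', y⟩, ⟨ht', hyB⟩, rfl⟩
      constructor
      · apply image_prod_subset_ball t x (r / 2) (r / 2) r (by positivity) (by positivity)
          hr.le (by nlinarith)
        exact ⟨(t', y), ⟨ht', hyB.1⟩, rfl⟩
      · obtain ⟨s, hs, rfl⟩ := hyB.2
        refine ⟨consPt n (t' - t) s, ?_, ?_⟩
        · rw [mem_ball_zero_iff]
          have h1 := norm_consPt_sq n (t' - t) s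
          have h2 : |t' - t| < r / 2 := by
            have : dist t' t < r / 2 := ht'
            rwa [Real.dist_eq] at this
          have h3 : ‖s‖ < r / 2 := by rwa [mem_ball_zero_iff] at hs
          have h4 : (t' - t) ^ 2 < (r / 2) ^ 2 := by
            rw [← sq_abs]; exact pow_lt_pow_left₀ h2 (abs_nonneg _) two_ne_zero
          have h5 : ‖s‖ ^ 2 < (r / 2) ^ 2 := pow_lt_pow_left₀ h3 (norm_nonneg _) two_ne_zero
          have h6 : ‖consPt n (t' - t) s‖ ^ 2 < r ^ 2 := by rw [h1]; nlinarith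
          exact lt_of_pow_lt_pow_left₀ 2 hr.le h6
        · simp only [hg]
          rw [consPt_zero, tailPt_consPt, ← heq hs]
          congr 2
          ring
    calc ENNReal.ofReal (θ / 2 ^ n * r ^ (n + 1))
        = ENNReal.ofReal (2 * (r / 2)) * ENNReal.ofReal (θ * (r / 2) ^ n) := by
          rw [← ENNReal.ofReal_mul (by positivity)]
          congr 1
          rw [div_pow, pow_succ]
          field_simp
      _ ≤ ENNReal.ofReal (2 * (r / 2)) * ν B := mul_le_mul_right hmeas _
      _ = lineProd ν (WithLp.toLp 2 '' (Metric.ball t (r / 2) ×ˢ B)) := by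
          rw [lineProd_image_prod, Real.volume_ball]
      _ ≤ lineProd ν (Metric.ball (WithLp.toLp 2 (t, x)) r ∩ g '' Metric.ball 0 r) :=
          measure_mono hsub

end ur

end Vale.Agent.H32
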